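import Vale.Agent.P181.R2.H849.GapY

/-! P181, theorem Y: row Q1, the form with two parameters `q`, `s` (edit of helper849's GapY4). -/

set_option autoImplicit false

open scoped TensorProduct

namespace Vale.Agent.P181.FR

open Vale.Agent.P181 Vale.Agent.P181.H280

namespace H822Q

/-- **Row Q1**, from W5 and Y2. -/
theorem gap_mix_qs_of {m i : ℕ} (hi : 3 ≤ i) (him : i ≤ m) (w5 : W5I m i) (y2 : Y2I m i) :
    ∃ C : ℕ, ∀ (a b q s : ℕ) (g : ℕ → ℕ), 1 ≤ q → 2 ≤ s → b + 1 ≤ s ^ q → C * (q * s) ≤ a →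
    C * (a * q) ≤ b → ∑ j ∈ Finset.Icc 1 m, j * g j = a * b → C * (a * q ^ 2 * s) ≤ g 2 →
    C * (a * q ^ 2 * s) ≤ g i → C * ((a * q) ^ 3 * s) ≤ g 2 * g i →
    plethMult a b m (gw m g) ≤ plethMult b a m (gw m g) := by
  obtain ⟨K, hK0, hcore⟩ := gap_coreY (by omega : 1 ≤ i) him w5
  obtain ⟨N, hN, hrich⟩ := y2
  obtain ⟨C, hC⟩ : ∃ C, C = 1024 * m * N ^ 2 + 1024 * N ^ 2 * m ^ 2 + 256 * i * N ^ 2 * m ^ 2 +
    256 * i * N ^ 2 * m ^ 3 + 4 * i * N * m + 16 * N * m + 16 * N + 2 * i * m + 2 * K := ⟨_, rfl⟩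
  refine ⟨C, ?_⟩
  intro a b q s g hq1 hs2 hL hCa hCb hsum h2 hgi hprod
  have hqs : 0 < q * s := Nat.mul_pos hq1 (by omega)
  have hC1 : C ≤ a := (Nat.le_mul_of_pos_right C hqs).trans hCa
  have ha1 : 1 ≤ a := by omega
  obtain ⟨P, hP⟩ : ∃ P, P = a * q := ⟨_, rfl⟩
  rw [← hP] at hCb hprod
  have haP : a ≤ P := by rw [hP]; exact Nat.le_mul_of_pos_right a hq1
  have hP1 : 1 ≤ P := by omega
  obtain ⟨R, hR⟩ : ∃ R, R = m * P := ⟨_, rfl⟩
  have hR1 : 1 ≤ R := by rw [hR]; exact Nat.mul_pos (by omega) hP1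
  have hPL : P ≤ a * q ^ 2 * s := by
    rw [hP]
    calc a * q = a * q * 1 := by ring
      _ ≤ a * q * (q * s) := Nat.mul_le_mul_left _ hqs
      _ = a * q ^ 2 * s := by ring
  obtain ⟨A, hA⟩ : ∃ A, A = a / (8 * N) := ⟨_, rfl⟩
  obtain ⟨G2, hG2⟩ : ∃ G2, G2 = g 2 / (2 * i * N * R) := ⟨_, rfl⟩
  obtain ⟨Gi, hGi⟩ : ∃ Gi, Gi = g i / (8 * N * R) := ⟨_, rfl⟩
  have half : ∀ x y : ℕ, 0 < y → 2 * y ≤ x → x ≤ 2 * y * (x / y) ∧ 2 ≤ x / y := by
    intro x y hy h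
    have h1 := Nat.div_add_mod x y
    have h2 := Nat.mod_lt x hy
    have h3 : 2 ≤ x / y := by rw [Nat.le_div_iff_mul_le hy]; exact h
    have h4 : y * 1 ≤ y * (x / y) := Nat.mul_le_mul_left _ (by omega)
    have e : 2 * y * (x / y) = y * (x / y) + y * (x / y) := by ring
    exact ⟨by omega, h3⟩
  have hN8 : 0 < 8 * N := by omega
  have hy2 : 0 < 2 * i * N * R := by positivity
  have hyi : 0 < 8 * N * R := by positivity
  obtain ⟨hA1, hA2⟩ := half a (8 * N) hN8 (by omega)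
  rw [← hA] at hA1 hA2
  obtain ⟨hG1, hG22⟩ := half (g 2) (2 * i * N * R) hy2 (by
    calc 2 * (2 * i * N * R) = (4 * i * N * m) * P := by rw [hR]; ring
      _ ≤ C * P := Nat.mul_le_mul_right _ (by omega)
      _ ≤ C * (a * q ^ 2 * s) := Nat.mul_le_mul_left _ hPL
      _ ≤ g 2 := h2)
  rw [← hG2] at hG1 hG22
  obtain ⟨hGi1, hGi2⟩ := half (g i) (8 * N * R) hyi (by
    calc 2 * (8 * N * R) = (16 * N * m) * P := by rw [hR]; ring
      _ ≤ C * P := Nat.mul_le_mul_right _ (by omega)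
      _ ≤ C * (a * q ^ 2 * s) := Nat.mul_le_mul_left _ hPL
      _ ≤ g i := hgi)
  rw [← hGi] at hGi1 hGi2
  -- the four products
  have p1 : 4 * (R * s) ≤ A * A := by
    have h1 : (16 * N) ^ 2 * (4 * (R * s)) ≤ (16 * N) ^ 2 * (A * A) := by
      calc (16 * N) ^ 2 * (4 * (R * s)) = (1024 * m * N ^ 2 * (q * s)) * a := by rw [hR, hP]; ring
        _ ≤ (C * (q * s)) * a := Nat.mul_le_mul_right _ (Nat.mul_le_mul_right _ (by omega))
        _ ≤ a * a := Nat.mul_le_mul_right _ hCa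
        _ ≤ (2 * (8 * N) * A) * (2 * (8 * N) * A) := Nat.mul_le_mul hA1 hA1
        _ = (16 * N) ^ 2 * (A * A) := by ring
    exact Nat.le_of_mul_le_mul_left h1 (by positivity)
  have p2 : 4 * (R * s) ≤ A * Gi := by
    have h1 : (256 * N ^ 2 * R) * (4 * (R * s)) ≤ (256 * N ^ 2 * R) * (A * Gi) := by
      calc (256 * N ^ 2 * R) * (4 * (R * s)) = a * ((1024 * N ^ 2 * m ^ 2) * (a * q ^ 2 * s)) := by
            rw [hR, hP]; ring
        _ ≤ a * (C * (a * q ^ 2 * s)) :=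
            Nat.mul_le_mul_left _ (Nat.mul_le_mul_right _ (by omega))
        _ ≤ a * g i := Nat.mul_le_mul_left _ hgi
        _ ≤ (2 * (8 * N) * A) * (2 * (8 * N * R) * Gi) := Nat.mul_le_mul hA1 hGi1
        _ = (256 * N ^ 2 * R) * (A * Gi) := by ring
    exact Nat.le_of_mul_le_mul_left h1 (by positivity)
  have p3 : 4 * (R * s) ≤ G2 * A := by
    have h1 : (64 * i * N ^ 2 * R) * (4 * (R * s)) ≤ (64 * i * N ^ 2 * R) * (G2 * A) := by
      calc (64 * i * N ^ 2 * R) * (4 * (R * s)) = ((256 * i * N ^ 2 * m ^ 2) * (a * q ^ 2 * s)) * a := by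
            rw [hR, hP]; ring
        _ ≤ (C * (a * q ^ 2 * s)) * a :=
            Nat.mul_le_mul_right _ (Nat.mul_le_mul_right _ (by omega))
        _ ≤ g 2 * a := Nat.mul_le_mul_right _ h2
        _ ≤ (2 * (2 * i * N * R) * G2) * (2 * (8 * N) * A) := Nat.mul_le_mul hG1 hA1
        _ = (64 * i * N ^ 2 * R) * (G2 * A) := by ring
    exact Nat.le_of_mul_le_mul_left h1 (by positivity)
  have p4 : 4 * (R * s) ≤ G2 * Gi := by
    have h1 : (64 * i * N ^ 2 * R ^ 2) * (4 * (R * s)) ≤ (64 * i * N ^ 2 * R ^ 2) * (G2 * Gi) := by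
      calc (64 * i * N ^ 2 * R ^ 2) * (4 * (R * s)) = (256 * i * N ^ 2 * m ^ 3) * (P ^ 3 * s) := by
            rw [hR]; ring
        _ ≤ C * (P ^ 3 * s) := Nat.mul_le_mul_right _ (by omega)
        _ ≤ g 2 * g i := hprod
        _ ≤ (2 * (2 * i * N * R) * G2) * (2 * (8 * N * R) * Gi) := Nat.mul_le_mul hG1 hGi1
        _ = (64 * i * N ^ 2 * R ^ 2) * (G2 * Gi) := by ring
    exact Nat.le_of_mul_le_mul_left h1 (by positivity)
  obtain ⟨t1, ht1⟩ : ∃ t1, t1 = min A G2 := ⟨_, rfl⟩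
  obtain ⟨t2, ht2⟩ : ∃ t2, t2 = min A Gi := ⟨_, rfl⟩
  have hp : 4 * (R * s) ≤ t1 * t2 := by
    rw [ht1, ht2]
    rcases min_choice A G2 with e1 | e1 <;> rcases min_choice A Gi with e2 | e2 <;>
      rw [e1, e2] <;> assumption
  have ht1A : t1 ≤ A := by rw [ht1]; exact min_le_left _ _
  have ht1G : t1 ≤ G2 := by rw [ht1]; exact min_le_right _ _
  have ht2A : t2 ≤ A := by rw [ht2]; exact min_le_left _ _
  have ht2G : t2 ≤ Gi := by rw [ht2]; exact min_le_right _ _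
  have ht12 : 2 ≤ t1 := by rw [ht1]; exact le_min hA2 hG22
  have ht22 : 2 ≤ t2 := by rw [ht2]; exact le_min hA2 hGi2
  obtain ⟨h1, hh1⟩ : ∃ h1, t1 = h1 + 1 := ⟨t1 - 1, by omega⟩
  obtain ⟨k1, hk1⟩ : ∃ k1, t2 = k1 + 1 := ⟨t2 - 1, by omega⟩
  have hhk : R * s ≤ h1 * k1 := by
    have e1 : t1 * t2 ≤ (2 * h1) * (2 * k1) := Nat.mul_le_mul (by omega) (by omega)
    have e2 : (2 * h1) * (2 * k1) = 4 * (h1 * k1) := by ring
    omega
  have hr := hrich h1 k1 R s hhk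
  have hA8 : 8 * N * A ≤ a := by rw [hA]; exact Nat.mul_div_le _ _
  have hG8 : 2 * i * N * R * G2 ≤ g 2 := by rw [hG2]; exact Nat.mul_div_le _ _
  have hGi8 : 8 * N * R * Gi ≤ g i := by rw [hGi]; exact Nat.mul_div_le _ _
  have hu2 : 2 * i * N * (h1 + 1) * R ≤ g 2 := by
    calc 2 * i * N * (h1 + 1) * R = 2 * i * N * R * t1 := by rw [hh1]; ring
      _ ≤ 2 * i * N * R * G2 := Nat.mul_le_mul_left _ ht1G
      _ ≤ g 2 := hG8
  have hui : 2 * (4 * N * (k1 + 1) * R) ≤ g i := by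
    calc 2 * (4 * N * (k1 + 1) * R) = 8 * N * R * t2 := by rw [hk1]; ring
      _ ≤ 8 * N * R * Gi := Nat.mul_le_mul_left _ ht2G
      _ ≤ g i := hGi8
  have hKa : 2 * (K * a) ≤ g i := by
    calc 2 * (K * a) = (2 * K) * (a * 1) := by ring
      _ ≤ C * (a * q ^ 2 * s) :=
          Nat.mul_le_mul (by omega) (le_trans (Nat.le_of_eq (mul_one a)) (haP.trans hPL))
      _ ≤ g i := hgi
  have hpow : plethMult a b m (gw m g) ≤ s ^ R := by
    refine (plethMult_le_pow a b m _).trans ?_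
    calc (b + 1) ^ (m * a) ≤ (s ^ q) ^ (m * a) := Nat.pow_le_pow_left hL _
      _ = s ^ R := by rw [← pow_mul, hR, hP]; congr 1; ring
  refine hcore a b (2 * i * R) (2 * N * (h1 + 1) + 2 * N * (k1 + 1)) _
    (fun j => if j = 2 then 2 * i * N * (h1 + 1) * R else
      if j = i then 4 * N * (k1 + 1) * R else 0) g
    ⟨2 * R, by ring⟩ ?_ ?_ ?_ ?_ ?_ hsum ?_ ?_
  · have e1 : 2 * 1 * a ≤ 2 * i * R := by
      apply Nat.mul_le_mul (Nat.mul_le_mul_left _ (by omega))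
      rw [hR]
      exact haP.trans (Nat.le_mul_of_pos_left _ (by omega))
    omega
  · have e1 : 2 * N * t1 ≤ 2 * N * A := Nat.mul_le_mul_left _ ht1A
    have e2 : 2 * N * t2 ≤ 2 * N * A := Nat.mul_le_mul_left _ ht2A
    have e3 : 8 * N * A = 2 * (2 * N * A) + 2 * (2 * N * A) := by ring
    rw [hh1] at e1
    rw [hk1] at e2
    omega
  · calc 2 * i * R + K = (2 * i * m) * P + K * 1 := by rw [hR]; ring
      _ ≤ (2 * i * m) * P + K * P := Nat.add_le_add_left (Nat.mul_le_mul_left _ hP1) _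
      _ = (2 * i * m + K) * P := by ring
      _ ≤ C * P := Nat.mul_le_mul_right _ (by omega)
      _ ≤ b := hCb
  · intro j
    show (if j = 2 then 2 * i * N * (h1 + 1) * R else
      if j = i then 4 * N * (k1 + 1) * R else 0) ≤ g j
    by_cases hj : j = 2
    · rw [if_pos hj, hj]; exact hu2
    · rw [if_neg hj]
      by_cases hj' : j = i
      · rw [if_pos hj', hj']; omega
      · rw [if_neg hj']; exact Nat.zero_le _
  · rw [sum_two (by omega) hi him]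
    ring
  · show (if i = 2 then 2 * i * N * (h1 + 1) * R else
      if i = i then 4 * N * (k1 + 1) * R else 0) + K * a ≤ g i
    rw [if_neg (by omega), if_pos rfl]
    omega
  · rw [gw_two (by omega) hi him]
    exact hpow.trans hr

end H822Q

end Vale.Agent.P181.FR
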