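import Vale.Agent.P181.R2.H182.VDefs
import Vale.Agent.P181.R2.H182.PtMul

/-! P181, Theorem V, row V7: the reduction to invariants, from V1, V2, V3, V4, V6. -/

set_option autoImplicit false

open scoped TensorProduct

namespace Vale.Agent.P181.VT

open Vale.Agent.P181 Vale.Agent.P181.H280 Vale.Agent.P181.FR Vale.Agent.P181.H54 MvPolynomial

namespace H822V7

/-- Functions of `B` points of `ℂ^m`, homogeneous of degree `e j` in the point `j`. -/
noncomputable def MPe (B m : ℕ) (e : Fin B → ℕ) : Submodule ℂ ((Fin B → Fin m → ℂ) → ℂ) :=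
  Submodule.span ℂ {G | ∃ q : Fin B → MvPolynomial (Fin m) ℂ, (∀ j, (q j).IsHomogeneous (e j)) ∧
    G = fun p => ∏ j, eval (p j) (q j)}

theorem MPe_one {B m : ℕ} : (1 : (Fin B → Fin m → ℂ) → ℂ) ∈ MPe B m 0 := by
  refine Submodule.subset_span ⟨fun _ => 1, fun j => isHomogeneous_one _ _, ?_⟩
  funext p
  simp

theorem MPe_mul {B m : ℕ} {e e' : Fin B → ℕ} {G H : (Fin B → Fin m → ℂ) → ℂ}
    (hG : G ∈ MPe B m e) (hH : H ∈ MPe B m e') : G * H ∈ MPe B m (e + e') := by
  have h1 : G * H ∈ MPe B m e * MPe B m e' := Submodule.mul_mem_mul hG hH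
  refine (?_ : MPe B m e * MPe B m e' ≤ MPe B m (e + e')) h1
  unfold MPe
  rw [Submodule.span_mul_span]
  apply Submodule.span_mono
  rintro F ⟨G', ⟨q, hq, rfl⟩, H', ⟨q', hq', rfl⟩, rfl⟩
  refine ⟨fun j => q j * q' j, fun j => (hq j).mul (hq' j), ?_⟩
  funext p
  simp [Finset.prod_mul_distrib]

theorem MPe_prod {B m : ℕ} {ι : Type} (s : Finset ι) (e : ι → Fin B → ℕ)
    (F : ι → (Fin B → Fin m → ℂ) → ℂ) (h : ∀ x ∈ s, F x ∈ MPe B m (e x)) :
    (fun p => ∏ x ∈ s, F x p) ∈ MPe B m (∑ x ∈ s, e x) := by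
  classical
  induction s using Finset.induction_on with
  | empty =>
    have h1 : (fun p : Fin B → Fin m → ℂ => ∏ x ∈ (∅ : Finset ι), F x p) = 1 := by
      funext p
      simp
    rw [Finset.sum_empty, h1]
    exact MPe_one
  | insert x s hx ih =>
    have h1 := MPe_mul (h x (Finset.mem_insert_self x s))
      (ih (fun y hy => h y (Finset.mem_insert_of_mem hy)))
    rw [Finset.sum_insert hx]
    have h2 : (fun p => ∏ y ∈ insert x s, F y p) = F x * fun p => ∏ y ∈ s, F y p := by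
      funext p
      rw [Finset.prod_insert hx]
      rfl
    rw [h2]
    exact h1

theorem block_mem {k n m N0 : ℕ} (β : Fin k) {q : (Fin n → Fin m → ℂ) → ℂ} (hq : q ∈ MP n m N0) :
    (fun p : Fin (k * n) → Fin m → ℂ => q (pt p β)) ∈
      MPe (k * n) m (fun j => if (finProdFinEquiv.symm j).1 = β then N0 else 0) := by
  classical
  refine Submodule.span_induction (p := fun (q : (Fin n → Fin m → ℂ) → ℂ) _ =>
    (fun p : Fin (k * n) → Fin m → ℂ => q (pt p β)) ∈
      MPe (k * n) m (fun j => if (finProdFinEquiv.symm j).1 = β then N0 else 0))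
    ?_ ?_ ?_ ?_ hq
  · rintro _ ⟨Q, hQ, rfl⟩
    refine Submodule.subset_span ⟨fun j => if (finProdFinEquiv.symm j).1 = β then
      Q (finProdFinEquiv.symm j).2 else 1, fun j => ?_, ?_⟩
    · show (if (finProdFinEquiv.symm j).1 = β then
        Q (finProdFinEquiv.symm j).2 else 1).IsHomogeneous
          (if (finProdFinEquiv.symm j).1 = β then N0 else 0)
      split_ifs with h
      · exact hQ _
      · exact isHomogeneous_one _ _
    · funext p
      have h1 : ∏ j : Fin (k * n), eval (p j) (if (finProdFinEquiv.symm j).1 = β then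
          Q (finProdFinEquiv.symm j).2 else 1) =
          ∏ x : Fin k × Fin n, eval (p (finProdFinEquiv x)) (if x.1 = β then Q x.2 else 1) := by
        rw [← Equiv.prod_comp finProdFinEquiv]
        refine Finset.prod_congr rfl (fun x _ => ?_)
        rw [Equiv.symm_apply_apply]
      rw [h1, Fintype.prod_prod_type, Finset.prod_eq_single β]
      · refine Finset.prod_congr rfl (fun s _ => ?_)
        rw [if_pos rfl]
        rfl
      · intro β' _ hβ
        refine Finset.prod_eq_one (fun s _ => ?_)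
        rw [if_neg hβ, map_one]
      · intro h
        exact absurd (Finset.mem_univ _) h
  · exact Submodule.zero_mem _
  · intro F G _ _ hF hG
    exact Submodule.add_mem _ hF hG
  · intro a F _ hF
    exact Submodule.smul_mem _ a hF

theorem QQ_mem {r k N0 : ℕ} {q : (Fin (nn r) → Fin (r + 1) → ℂ) → ℂ}
    (hq : q ∈ MP (nn r) (r + 1) N0) : (QQ (k := k) q) ∈ MP (k * nn r) (r + 1) N0 := by
  classical
  have h := MPe_prod (Finset.univ : Finset (Fin k))
    (fun β j => if (finProdFinEquiv.symm j).1 = β then N0 else 0)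
    (fun β (p : Fin (k * nn r) → Fin (r + 1) → ℂ) => q (pt p β)) (fun β _ => block_mem β hq)
  have h2 : ∑ β : Fin k, (fun j : Fin (k * nn r) =>
      if (finProdFinEquiv.symm j).1 = β then N0 else 0) = fun _ => N0 := by
    funext j
    rw [Finset.sum_apply, Finset.sum_ite_eq, if_pos (Finset.mem_univ _)]
  rw [h2] at h
  exact h

theorem QQ_hw {r k N1 : ℕ} {q : (Fin (nn r) → Fin (r + 1) → ℂ) → ℂ}
    (hq : HWF (nn r) (r + 1) (N1 • om (r + 1) (r + 1)) q) :
    HWF (k * nn r) (r + 1) ((k * N1) • om (r + 1) (r + 1)) (QQ (k := k) q) := by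
  intro g hg p
  show ∏ β, q (pt (fun j => Matrix.vecMul (p j) g) β) = _
  have h1 : ∀ β : Fin k, q (pt (fun j => Matrix.vecMul (p j) g) β) =
      (∏ i, g i i ^ (N1 • om (r + 1) (r + 1)) i) * q (pt p β) := fun β => hq g hg (pt p β)
  rw [Finset.prod_congr rfl (fun β _ => h1 β), Finset.prod_mul_distrib, Finset.prod_const,
    Finset.card_univ, Fintype.card_fin, ← Finset.prod_pow]
  congr 1
  refine Finset.prod_congr rfl (fun i _ => ?_)
  rw [← pow_mul]
  congr 1
  simp only [Pi.smul_apply, smul_eq_mul]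
  ring

theorem TH_add {r k N : ℕ} (τ : Fin N → Fin k → ℂ) (α : Fin N → ℂ)
    (H : Matrix (Fin (r + 1)) (Fin (r + 1)) ℂ) (F F' : (Fin (k * nn r) → Fin (r + 1) → ℂ) → ℂ)
    (p : Fin (k * nn r) → Fin (r + 1) → ℂ) :
    TH τ α H (F + F') p = TH τ α H F p + TH τ α H F' p := by
  simp only [TH, Pi.add_apply, mul_add, Finset.sum_add_distrib]

theorem TH_smul {r k N : ℕ} (τ : Fin N → Fin k → ℂ) (α : Fin N → ℂ)
    (H : Matrix (Fin (r + 1)) (Fin (r + 1)) ℂ) (s : ℂ)
    (F : (Fin (k * nn r) → Fin (r + 1) → ℂ) → ℂ)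
    (p : Fin (k * nn r) → Fin (r + 1) → ℂ) :
    TH τ α H (s • F) p = s * TH τ α H F p := by
  simp only [TH, Pi.smul_apply, smul_eq_mul, Finset.mul_sum]
  refine Finset.sum_congr rfl (fun i _ => ?_)
  ring

theorem finrank_le_pi {X N : Type} [AddCommMonoid X] [Module ℂ X] [AddCommMonoid N]
    [Module ℂ N] [Module.Finite ℂ N] (T : Submodule ℂ N) (M : ℕ) (L : X →ₗ[ℂ] (Fin M → T))
    (hL : ∀ x, L x = 0 → x = 0) :
    Module.finrank ℂ X ≤ M * Module.finrank ℂ T := by
  let _ := Module.addCommMonoidToAddCommGroup ℂ (M := X)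
  let _ := Module.addCommMonoidToAddCommGroup ℂ (M := N)
  have hg : Function.Injective L := (injective_iff_map_eq_zero L).2 hL
  have h1 := LinearMap.finrank_le_finrank_of_injective hg
  rw [Module.finrank_pi_fintype, Finset.sum_const, Finset.card_univ, Fintype.card_fin,
    smul_eq_mul] at h1
  exact h1

/-- V1. -/
def P1 : Prop := ∀ k e : ℕ, ∃ (N : ℕ) (τ : Fin N → Fin k → ℂ) (α : Fin N → ℂ), Polar k e τ α

/-- V2. -/
def P2 : Prop := ∀ {r k c N : ℕ} (τ : Fin N → Fin k → ℂ) (α : Fin N → ℂ),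
  Polar k (nn r * c) τ α → ∀ (H : Matrix (Fin (r + 1)) (Fin (r + 1)) ℂ)
  (F : (Fin (k * nn r) → Fin (r + 1) → ℂ) → ℂ), F ∈ MP (k * nn r) (r + 1) c →
  TH τ α H F ∈ MP (k * nn r) (r + 1) (3 * (r + 1) * c)

/-- V3. -/
def P3 : Prop := ∀ {r k c N : ℕ} (τ : Fin N → Fin k → ℂ) (α : Fin N → ℂ)
  (H : Matrix (Fin (r + 1)) (Fin (r + 1)) ℂ)
  (F : (Fin (k * nn r) → Fin (r + 1) → ℂ) → ℂ), F ∈ MP (k * nn r) (r + 1) c →
  HWF (k * nn r) (r + 1) ((3 * (k * nn r * c)) • om (r + 1) (r + 1)) (TH τ α H F)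

/-- V4. -/
def P4 : Prop := ∀ r : ℕ, 1 ≤ r → ∃ (N0 N1 : ℕ) (q : (Fin (nn r) → Fin (r + 1) → ℂ) → ℂ)
  (z : Fin (nn r) → Fin (r + 1) → ℂ), SepQ r N0 N1 q z

/-- V6. -/
def P6 : Prop := ∀ {r k c N N0 N1 : ℕ} (τ : Fin N → Fin k → ℂ) (α : Fin N → ℂ)
  (q : (Fin (nn r) → Fin (r + 1) → ℂ) → ℂ) (z : Fin (nn r) → Fin (r + 1) → ℂ),
  Polar k (nn r * c) τ α → SepQ r N0 N1 q z →
  ∃ (M : ℕ) (H : Fin M → Matrix (Fin (r + 1)) (Fin (r + 1)) ℂ),
    M ≤ (k * nn r * c + 1) ^ ((r + 1) * (r + 1)) ∧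
    ∀ F ∈ MP (k * nn r) (r + 1) c, F ≠ 0 →
      (∀ (σ : Equiv.Perm (Fin (k * nn r))) (p : Fin (k * nn r) → Fin (r + 1) → ℂ),
        F (fun j => p (σ j)) = F p) →
      ∃ (l : Fin M) (p : Fin (k * nn r) → Fin (r + 1) → ℂ), ∑ σ : Equiv.Perm (Fin (k * nn r)),
        QQ q (fun j => p (σ j)) * TH τ α (H l) F (fun j => p (σ j)) ≠ 0

end H822V7

open H822V7 in
/-- **V7**: the reduction to invariants, from V1, V2, V3, V4, V6. -/
theorem v7_of (v1 : P1) (v2 : P2) (v3 : P3) (v4 : P4) (v6 : P6) :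
    ∀ r : ℕ, 1 ≤ r → ∃ N0 N1 : ℕ, ∀ k c : ℕ,
  Module.finrank ℂ (Pleth (k * nn r) c (r + 1)) ≤
    (k * nn r * c + 1) ^ ((r + 1) * (r + 1)) *
      plethMult (k * nn r) (3 * (r + 1) * c + N0) (r + 1)
        ((3 * (k * nn r * c) + k * N1) • om (r + 1) (r + 1)) := by
  classical
  intro r hr
  obtain ⟨N0, N1, q, z, hS⟩ := v4 r hr
  refine ⟨N0, N1, fun k c => ?_⟩
  obtain ⟨N, τ, α, hP⟩ := v1 k (nn r * c)
  obtain ⟨M, H, hM, hinj⟩ := v6 τ α q z hP hS
  have hmem : ∀ (l : Fin M) (x : Pleth (k * nn r) c (r + 1)),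
      TH τ α (H l) (fun p => ptv x p) * QQ q ∈
        MP (k * nn r) (r + 1) (3 * (r + 1) * c + N0) := fun l x =>
    MP_mul (v2 τ α hP (H l) _ (ptv_mem x)) (QQ_mem hS.1)
  choose Y hY using fun (l : Fin M) (x : Pleth (k * nn r) c (r + 1)) => exists_ptv _ (hmem l x)
  have hhw : ∀ (l : Fin M) (x : Pleth (k * nn r) c (r + 1)),
      Y l x ∈ hwSpace ((3 * (k * nn r * c) + k * N1) • om (r + 1) (r + 1))
        (plethAct (k * nn r) (3 * (r + 1) * c + N0) (r + 1)) := by
    intro l x g hg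
    apply ptv_sep
    intro p
    rw [ptv_act, ptv_smul, hY, hY, Finset.mul_sum]
    refine Finset.sum_congr rfl (fun σ _ => ?_)
    have h1 := v3 τ α (H l) _ (ptv_mem x) g hg (fun j => p (σ j))
    have h2 := QQ_hw (k := k) hS.2.1 g hg (fun j => p (σ j))
    show TH τ α (H l) (fun p => ptv x p) (fun j => Matrix.vecMul (p (σ j)) g) *
      QQ q (fun j => Matrix.vecMul (p (σ j)) g) = _ * (TH τ α (H l) (fun p => ptv x p)
        (fun j => p (σ j)) * QQ q (fun j => p (σ j)))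
    rw [h1, h2]
    have h3 : ∏ i, g i i ^ ((3 * (k * nn r * c) + k * N1) • om (r + 1) (r + 1)) i =
        (∏ i, g i i ^ ((3 * (k * nn r * c)) • om (r + 1) (r + 1)) i) *
          ∏ i, g i i ^ ((k * N1) • om (r + 1) (r + 1)) i := by
      rw [← Finset.prod_mul_distrib]
      refine Finset.prod_congr rfl (fun i _ => ?_)
      rw [← pow_add]
      congr 1
      simp only [Pi.smul_apply, smul_eq_mul]
      ring
    rw [h3]
    ring
  have _inst : Module.Finite ℂ (Pleth (k * nn r) (3 * (r + 1) * c + N0) (r + 1)) :=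
    inferInstanceAs (Module.Finite ℂ
      (Sym[ℂ]^(k * nn r) (Sym[ℂ]^(3 * (r + 1) * c + N0) (Fin (r + 1) → ℂ))))
  let L : Pleth (k * nn r) c (r + 1) →ₗ[ℂ] (Fin M →
      hwSpace ((3 * (k * nn r * c) + k * N1) • om (r + 1) (r + 1))
        (plethAct (k * nn r) (3 * (r + 1) * c + N0) (r + 1))) :=
    { toFun := fun x l => ⟨Y l x, hhw l x⟩
      map_add' := by
        intro x y
        funext l
        apply Subtype.ext
        apply ptv_sep
        intro p
        show ptv (Y l (x + y)) p = ptv (Y l x + Y l y) p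
        rw [ptv_add, hY, hY, hY, ← Finset.sum_add_distrib]
        refine Finset.sum_congr rfl (fun σ _ => ?_)
        have h1 : (fun p => ptv (x + y) p) = (fun p => ptv x p) + fun p => ptv y p := by
          funext p
          exact ptv_add x y p
        rw [h1]
        show TH τ α (H l) (_ + _) _ * _ = TH τ α (H l) _ _ * _ + TH τ α (H l) _ _ * _
        rw [TH_add, add_mul]
      map_smul' := by
        intro s x
        funext l
        apply Subtype.ext
        apply ptv_sep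
        intro p
        show ptv (Y l (s • x)) p = ptv (s • Y l x) p
        rw [ptv_smul, hY, hY, Finset.mul_sum]
        refine Finset.sum_congr rfl (fun σ _ => ?_)
        have h1 : (fun p => ptv (s • x) p) = s • fun p => ptv x p := by
          funext p
          exact ptv_smul s x p
        rw [h1]
        show TH τ α (H l) (s • _) _ * _ = s * (TH τ α (H l) _ _ * _)
        rw [TH_smul, mul_assoc] }
  refine (finrank_le_pi _ M L (fun x hx => ?_)).trans (Nat.mul_le_mul_right _ hM)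
  by_contra hx0
  have hF0 : (fun p : Fin (k * nn r) → Fin (r + 1) → ℂ => ptv x p) ≠ 0 := by
    intro h
    apply hx0
    apply ptv_sep
    intro p
    rw [ptv_zero]
    exact congrFun h p
  obtain ⟨l, p, hlp⟩ := hinj _ (ptv_mem x) hF0 (fun σ p => ptv_perm x σ p)
  apply hlp
  have h1 : Y l x = 0 := congrArg Subtype.val (congrFun hx l)
  have h2 := hY l x p
  rw [h1, ptv_zero] at h2
  rw [h2]
  refine Finset.sum_congr rfl (fun σ _ => ?_)
  exact mul_comm _ _

end Vale.Agent.P181.VT
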