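import Vale.Agent.P181.R2.H822.FR8
import Vale.Agent.P181.R2.H175.Pig
import Vale.Agent.P181.R2.H182.Poly

/-! P181.FewRowsInterior, rows R8 and R9 with the literal statements (helper822). -/

set_option autoImplicit false

open scoped TensorProduct

namespace Vale.Agent.P181.FR

open Vale.Agent.P181 Vale.Agent.P181.H280 Vale.Agent.P181.H54

theorem pigStmt : PigStmt := by
  intro M _ _ _ E T hT N hN c h
  exact pig E T hT hN c h

theorem unipHyp (b a m : ℕ) : UnipHyp b a m :=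
  ⟨fun hkl x => unip_nil hkl x, fun hkl x hx t => unip_fix hkl x hx t⟩

theorem torusHyp (b a m : ℕ) : TorusHyp b a m :=
  ⟨fun i x => dg_poly i x, fun i _ x hx t => dg_fix i x hx t⟩

/-- **R8** -/
theorem chain_unip {b a m : ℕ} (E : Submodule ℂ (Pleth b a m))
    (hE : ∀ g, IsBorel g → ∀ x ∈ E, plethAct b a m g x ∈ E) :
    Module.finrank ℂ E ≤ (b * a + 1) ^ (m * m) *
      Module.finrank ℂ ↥(E ⊓ FixU b a m (m * m)) :=
  chain_unip_of pigStmt (unipHyp b a m) E hE (m * m)

/-- **R9** -/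
theorem rich {b a m : ℕ} (E : Submodule ℂ (Pleth b a m))
    (hE : ∀ g, IsBorel g → ∀ x ∈ E, plethAct b a m g x ∈ E) :
    ∃ lam : Fin m → ℕ, Module.finrank ℂ E ≤ (b * a + 1) ^ (m * m + m) *
      Module.finrank ℂ ↥(E ⊓ hwSpace lam (plethAct b a m)) :=
  rich_of pigStmt (unipHyp b a m) (torusHyp b a m) E hE

end Vale.Agent.P181.FR
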