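import Vale.Agent.P181.R2.H207.KDefs
import Vale.Agent.P181.R2.H822.FR9
import Vale.Agent.P181.R2.H130.R10
import Vale.Agent.P181.R2.H539.Dim

/-! P181, Theorem K, row K14 (helper822): a rich highest weight that dominates `ν`. -/

set_option autoImplicit false

open scoped TensorProduct

namespace Vale.Agent.P181.KT

open Finset Vale.Agent.P181 Vale.Agent.P181.H280 Vale.Agent.P181.H54 Vale.Agent.P181.FR
  Vale.Agent.P181.FR.H130

namespace H822

/-- Span of the products of vectors which lie below a word whose content dominates `ν`. -/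
noncomputable def ED (b c m : ℕ) (ν : Fin m → ℕ) : Submodule ℂ (Pleth b c m) :=
  Submodule.span ℂ {x | ∃ (v : Fin b → Fin c → (Fin m → ℂ)) (f : Fin b → Fin c → Fin m),
    (∀ k : Fin m, ∑ i ∈ univ.filter (· ≤ k), ν i ≤
      (univ.filter (fun p : Fin b × Fin c => f p.1 p.2 ≤ k)).card) ∧
    (∀ j t i, f j t < i → v j t i = 0) ∧
    x = SymmetricPower.tprod ℂ (fun j => SymmetricPower.tprod ℂ (v j))}

lemma toLin_supp {m : ℕ} {g : Matrix (Fin m) (Fin m) ℂ} (hg : IsBorel g) {u : Fin m → ℂ}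
    {x : Fin m} (hu : ∀ i, x < i → u i = 0) : ∀ i, x < i → Matrix.toLin' g u i = 0 := by
  intro i hi
  rw [Matrix.toLin'_apply, Matrix.mulVec, dotProduct]
  refine Finset.sum_eq_zero (fun j _ => ?_)
  rcases lt_or_ge x j with h | h
  · rw [hu j h, mul_zero]
  · rw [hg.1 i j (lt_of_le_of_lt h hi), zero_mul]

theorem ED_stable {b c m : ℕ} {ν : Fin m → ℕ} : ∀ g, IsBorel g → ∀ x ∈ ED b c m ν,
    plethAct b c m g x ∈ ED b c m ν := by
  intro g hg x hx
  induction hx using Submodule.span_induction with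
  | mem x h =>
    obtain ⟨v, f, hf, hv, rfl⟩ := h
    refine Submodule.subset_span ⟨fun j i => Matrix.toLin' g (v j i), f, hf, fun j t => ?_, ?_⟩
    · exact toLin_supp hg (hv j t)
    · exact plethAct_tprod' g v
  | zero =>
    rw [map_zero]
    exact Submodule.zero_mem _
  | add x y _ _ hx hy =>
    rw [map_add]
    exact Submodule.add_mem _ hx hy
  | smul c x _ hx =>
    rw [map_smul]
    exact Submodule.smul_mem _ _ hx

/-- `diag(t, .., t, 1, .., 1)` -/
noncomputable def dk {m : ℕ} (k : Fin m) (t : ℂ) : Matrix (Fin m) (Fin m) ℂ :=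
  Matrix.diagonal (fun i => if i ≤ k then t else 1)

lemma dk_vec {m : ℕ} (k : Fin m) (u : Fin m → ℂ) (t : ℂ) :
    Matrix.toLin' (dk k t) u = (fun i => if i ≤ k then 0 else u i) +
      t • (fun i => if i ≤ k then u i else 0) := by
  funext i
  rw [Matrix.toLin'_apply, dk, Matrix.mulVec_diagonal]
  by_cases hi : i ≤ k
  · simp [hi]
  · simp [hi]

lemma dk_mem {m : ℕ} (k : Fin m) (u : Fin m → ℂ) :
    (fun t : ℂ => Matrix.toLin' (dk k t) u) ∈ PF (Fin m → ℂ) := by
  have h1 : (fun t : ℂ => Matrix.toLin' (dk k t) u) =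
      (fun t : ℂ => t ^ 0 • (fun i => if i ≤ k then 0 else u i : Fin m → ℂ)) +
        fun t : ℂ => t ^ 1 • (fun i => if i ≤ k then u i else 0 : Fin m → ℂ) := by
    funext t
    rw [dk_vec, Pi.add_apply, pow_zero, one_smul, pow_one]
  rw [h1]
  exact Submodule.add_mem _ (mono_mem _ _) (mono_mem _ _)

lemma dk_borel {m : ℕ} (k : Fin m) {t : ℂ} (ht : t ≠ 0) : IsBorel (dk k t) := by
  refine ⟨fun i j hij => Matrix.diagonal_apply_ne _ (ne_of_gt hij), fun i => ?_⟩
  rw [dk, Matrix.diagonal_apply_eq]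
  split_ifs
  · exact ht
  · exact one_ne_zero

lemma dk_prod {m : ℕ} (k : Fin m) (t : ℂ) (lam : Fin m → ℕ) :
    ∏ i, (dk k t) i i ^ lam i = t ^ ∑ i ∈ univ.filter (· ≤ k), lam i := by
  rw [← Finset.prod_pow_eq_pow_sum, Finset.prod_filter]
  refine Finset.prod_congr rfl (fun i _ => ?_)
  rw [dk, Matrix.diagonal_apply_eq]
  split_ifs
  · rfl
  · rw [one_pow]

lemma gen_div {b c m : ℕ} {k0 : ℕ} (k : Fin m) (v : Fin b → Fin c → (Fin m → ℂ))
    (f : Fin b → Fin c → Fin m)
    (hS : k0 ≤ (univ.filter (fun p : Fin b × Fin c => f p.1 p.2 ≤ k)).card)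
    (hv : ∀ j t i, f j t < i → v j t i = 0) :
    ∃ F ∈ PF (Sym[ℂ]^b (Sym[ℂ]^c (Fin m → ℂ))), ∀ t : ℂ,
      (SymmetricPower.tprod ℂ (fun j => SymmetricPower.tprod ℂ
        (fun i => Matrix.toLin' (dk k t) (v j i))) : Sym[ℂ]^b (Sym[ℂ]^c (Fin m → ℂ))) =
        t ^ k0 • F t := by
  classical
  set S : Finset (Fin b × Fin c) := univ.filter (fun p : Fin b × Fin c => f p.1 p.2 ≤ k) with hSd
  let f' : Fin b → Fin c → ℂ → (Fin m → ℂ) := fun j i t =>
    if (j, i) ∈ S then v j i else Matrix.toLin' (dk k t) (v j i)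
  have hf' : ∀ j i, f' j i ∈ PF (Fin m → ℂ) := by
    intro j i
    by_cases h : (j, i) ∈ S
    · have h1 : f' j i = fun _ => v j i := by
        funext t
        simp only [f', h, if_true]
      rw [h1]
      exact const_mem _
    · have h1 : f' j i = fun t : ℂ => Matrix.toLin' (dk k t) (v j i) := by
        funext t
        simp only [f', h, if_false]
      rw [h1]
      exact dk_mem _ _
  have hff : ∀ j i (t : ℂ), Matrix.toLin' (dk k t) (v j i) =
      (if (j, i) ∈ S then t else 1) • f' j i t := by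
    intro j i t
    by_cases h : (j, i) ∈ S
    · simp only [f', h, if_true]
      have hk : f j i ≤ k := by
        have := (Finset.mem_filter.1 h).2
        exact this
      rw [dk_vec]
      funext l
      simp only [Pi.add_apply, Pi.smul_apply, smul_eq_mul]
      by_cases hl : l ≤ k
      · simp [hl]
      · have h0 : v j i l = 0 := hv j i l (lt_of_le_of_lt hk (not_le.1 hl))
        simp [hl, h0]
    · simp only [f', h, if_false, one_smul]
  refine ⟨fun t => t ^ (S.card - k0) • (SymmetricPower.tprod ℂ (fun j => SymmetricPower.tprod ℂ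
      (fun i => f' j i t)) : Sym[ℂ]^b (Sym[ℂ]^c (Fin m → ℂ))), ?_, ?_⟩
  · apply mul_pow_mem
    exact multi_mem (SymmetricPower.tprod ℂ (ι := Fin b) (M := Sym[ℂ]^c (Fin m → ℂ)))
      (fun j t => SymmetricPower.tprod ℂ (fun i => f' j i t))
      (fun j => multi_mem (SymmetricPower.tprod ℂ (ι := Fin c) (M := Fin m → ℂ))
        (fun i t => f' j i t) (fun i => hf' j i))
  · intro t
    have h1 : ∀ j, (SymmetricPower.tprod ℂ (fun i => Matrix.toLin' (dk k t) (v j i)) :
        Sym[ℂ]^c (Fin m → ℂ)) =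
          (∏ i : Fin c, if (j, i) ∈ S then t else 1) • SymmetricPower.tprod ℂ
            (fun i => f' j i t) := by
      intro j
      have h2 := MultilinearMap.map_smul_univ (SymmetricPower.tprod ℂ (ι := Fin c)
        (M := Fin m → ℂ)) (fun i => if (j, i) ∈ S then t else 1) (fun i => f' j i t)
      rw [← h2]
      congr 1
      funext i
      exact hff j i t
    have h3 : (fun j => (SymmetricPower.tprod ℂ (fun i => Matrix.toLin' (dk k t) (v j i)) :
        Sym[ℂ]^c (Fin m → ℂ))) = fun j =>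
          (∏ i : Fin c, if (j, i) ∈ S then t else 1) • SymmetricPower.tprod ℂ
            (fun i => f' j i t) := funext h1
    rw [h3]
    have h4 := MultilinearMap.map_smul_univ (SymmetricPower.tprod ℂ (ι := Fin b)
        (M := Sym[ℂ]^c (Fin m → ℂ))) (fun j => ∏ i : Fin c, if (j, i) ∈ S then t else 1)
        (fun j => SymmetricPower.tprod ℂ (fun i => f' j i t))
    rw [h4, smul_smul, ← pow_add, Nat.add_sub_cancel' hS]
    congr 1
    rw [← Finset.prod_product', Finset.univ_product_univ, Finset.prod_ite_mem,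
      Finset.univ_inter, Finset.prod_const]

lemma ED_div {b c m : ℕ} {ν : Fin m → ℕ} (k : Fin m) {x : Pleth b c m} (hx : x ∈ ED b c m ν) :
    ∃ F ∈ PF (Pleth b c m), ∀ t : ℂ,
      plethAct b c m (dk k t) x = t ^ (∑ i ∈ univ.filter (· ≤ k), ν i) • F t := by
  induction hx using Submodule.span_induction with
  | mem x h =>
    obtain ⟨v, f, hf, hv, rfl⟩ := h
    obtain ⟨F, hF, h1⟩ := gen_div k v f (hf k) hv
    exact ⟨F, hF, fun t => (plethAct_tprod' (dk k t) v).trans (h1 t)⟩
  | zero => exact ⟨0, Submodule.zero_mem _, fun t => by rw [map_zero, Pi.zero_apply, smul_zero]⟩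
  | add x y _ _ hx hy =>
    obtain ⟨F, hF, h1⟩ := hx
    obtain ⟨G, hG, h2⟩ := hy
    exact ⟨F + G, Submodule.add_mem _ hF hG, fun t => by
      rw [map_add, h1, h2, Pi.add_apply, smul_add]⟩
  | smul c x _ hx =>
    obtain ⟨F, hF, h1⟩ := hx
    exact ⟨c • F, Submodule.smul_mem _ _ hF, fun t => by
      rw [map_smul, h1, Pi.smul_apply, smul_comm]⟩

/-- The weight of a highest weight vector in `ED` dominates `ν`. -/
theorem ED_weight {b c m : ℕ} {ν lam : Fin m → ℕ} (k : Fin m) {x : Pleth b c m}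
    (hx : x ∈ ED b c m ν) (hw : x ∈ hwSpace lam (plethAct b c m)) (h0 : x ≠ 0) :
    ∑ i ∈ univ.filter (· ≤ k), ν i ≤ ∑ i ∈ univ.filter (· ≤ k), lam i := by
  by_contra hlt
  rw [not_le] at hlt
  apply h0
  obtain ⟨F, hF, h1⟩ := ED_div k hx
  set A := ∑ i ∈ univ.filter (· ≤ k), ν i
  set L := ∑ i ∈ univ.filter (· ≤ k), lam i with hLd
  refine eq_zero_of_const (mul_pow_mem hF (A - L)) x (fun t ht => ?_) ?_
  · have h2 := hw (dk k t) (dk_borel k ht)
    rw [h1 t, dk_prod, ← hLd] at h2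
    have h3 : t ^ L • (t ^ (A - L) • F t) = t ^ L • x := by
      rw [smul_smul, ← pow_add, Nat.add_sub_cancel' hlt.le]
      exact h2
    have h4 := congrArg (fun y => (t ^ L)⁻¹ • y) h3
    simpa only [smul_smul, ← mul_assoc, inv_mul_cancel₀ (pow_ne_zero _ ht), one_smul, one_mul]
      using h4
  · rw [zero_pow (Nat.sub_ne_zero_of_lt hlt), zero_smul]

/-! ### Dimension -/

lemma exists_perm_of_count {b : ℕ} {α : Type*} [DecidableEq α] (F F' : Fin b → α)
    (h : ∀ y, (univ.filter (fun j => F j = y)).card = (univ.filter (fun j => F' j = y)).card) :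
    ∃ σ : Equiv.Perm (Fin b), F' ∘ σ = F := by
  classical
  have e : ∀ y, Nonempty ({x // F x = y} ≃ {x // F' x = y}) := by
    intro y
    rw [← Fintype.card_eq, Fintype.card_subtype, Fintype.card_subtype]
    exact h y
  let σ : Equiv.Perm (Fin b) := (Equiv.sigmaFiberEquiv F).symm.trans
    ((Equiv.sigmaCongrRight (fun y => (e y).some)).trans (Equiv.sigmaFiberEquiv F'))
  refine ⟨σ, ?_⟩
  funext x
  have h1 : ∀ z : Σ y, {x // F x = y}, F' ((Equiv.sigmaFiberEquiv F')
      (Equiv.sigmaCongrRight (fun y => (e y).some) z)) = z.1 := by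
    rintro ⟨y, z⟩
    exact ((e y).some z).2
  have h2 := h1 ((Equiv.sigmaFiberEquiv F).symm x)
  exact h2

/-- exponents of the product of the monomials -/
noncomputable def ex {b m : ℕ} (F : Fin b → (Fin m → ℕ)) : (Fin m →₀ ℕ) →₀ ℕ :=
  ∑ j, Finsupp.single (Finsupp.equivFunOnFinite.symm (F j)) 1

lemma ex_apply {b m : ℕ} (F : Fin b → (Fin m → ℕ)) (u : Fin m → ℕ) :
    ex F (Finsupp.equivFunOnFinite.symm u) = (univ.filter (fun j => F j = u)).card := by
  classical
  rw [ex, Finsupp.finsetSum_apply, Finset.card_filter]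
  refine Finset.sum_congr rfl (fun j _ => ?_)
  by_cases h : F j = u
  · rw [if_pos h, h, Finsupp.single_eq_same]
  · rw [if_neg h, Finsupp.single_apply, if_neg]
    intro h2
    exact h (Finsupp.equivFunOnFinite.symm.injective h2)

lemma card_le_ex {b m : ℕ} (s : Finset (Fin b → (Fin m → ℕ))) :
    s.card ≤ b.factorial * (s.image ex).card := by
  classical
  refine Finset.card_le_mul_card_image s _ (fun a ha => ?_)
  obtain ⟨F0, _, rfl⟩ := Finset.mem_image.1 ha
  have h1 : s.filter (fun F => ex F = ex F0) ⊆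
      (univ : Finset (Equiv.Perm (Fin b))).image
        (fun σ : Equiv.Perm (Fin b) => (F0 ∘ ⇑σ : Fin b → (Fin m → ℕ))) := by
    intro F hF
    have h2 := (Finset.mem_filter.1 hF).2
    obtain ⟨σ, hσ⟩ := exists_perm_of_count F F0 (fun y => by
      rw [← ex_apply, ← ex_apply, h2])
    exact Finset.mem_image.2 ⟨σ, Finset.mem_univ _, hσ⟩
  refine (Finset.card_le_card h1).trans (Finset.card_image_le.trans (le_of_eq ?_))
  rw [Finset.card_univ, Fintype.card_perm, Fintype.card_fin]

lemma card_le_finrank {b c m : ℕ} (E : Submodule ℂ (Pleth b c m)) (Y : Finset ((Fin m →₀ ℕ) →₀ ℕ))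
    (hY : ∀ y ∈ Y, ∃ z ∈ E, sepX b c m z = MvPolynomial.monomial y 1) :
    Y.card ≤ Module.finrank ℂ E := by
  classical
  choose z hz hz2 using fun y : Y => hY y.1 y.2
  have hli : LinearIndependent ℂ (fun y : Y => (⟨z y, hz y⟩ : E)) := by
    apply LinearIndependent.of_comp (sepX b c m ∘ₗ Submodule.subtype _)
    have h1 : (⇑(sepX b c m ∘ₗ Submodule.subtype _) ∘ fun y : Y => (⟨z y, hz y⟩ : E)) =
        (MvPolynomial.basisMonomials (Fin m →₀ ℕ) ℂ) ∘ (fun y : Y => y.1) := by
      funext y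
      rw [MvPolynomial.coe_basisMonomials]
      exact hz2 y
    rw [h1]
    exact (MvPolynomial.basisMonomials (Fin m →₀ ℕ) ℂ).linearIndependent.comp _
      Subtype.val_injective
  have := finite_sub E
  have h2 := hli.fintype_card_le_finrank
  rwa [Fintype.card_coe] at h2

lemma word_mem {b c m : ℕ} {ν : Fin m → ℕ} (f : Fin b → Fin c → Fin m)
    (hf : ∀ i, (univ.filter (fun p : Fin b × Fin c => f p.1 p.2 = i)).card = ν i) :
    (SymmetricPower.tprod ℂ (fun j => SymmetricPower.tprod ℂ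
      (fun l => (Pi.single (f j l) 1 : Fin m → ℂ))) : Sym[ℂ]^b (Sym[ℂ]^c (Fin m → ℂ))) ∈
      ED b c m ν := by
  classical
  refine Submodule.subset_span ⟨fun j l => Pi.single (f j l) 1, f, fun k => ?_, fun j t i h => ?_,
    rfl⟩
  · have h1 := Finset.card_eq_sum_card_fiberwise (f := fun p : Fin b × Fin c => f p.1 p.2)
      (s := univ.filter (fun p : Fin b × Fin c => f p.1 p.2 ≤ k))
      (t := univ.filter (fun i : Fin m => i ≤ k)) (fun p hp => by
        simpa using hp)
    rw [h1]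
    refine Finset.sum_le_sum (fun i hi => ?_)
    rw [← hf i]
    refine Finset.card_le_card (fun p hp => ?_)
    have hp2 := (Finset.mem_filter.1 hp).2
    have hi2 := (Finset.mem_filter.1 hi).2
    refine Finset.mem_filter.2 ⟨Finset.mem_filter.2 ⟨Finset.mem_univ _, ?_⟩, hp2⟩
    rw [hp2]
    exact hi2
  · exact Pi.single_eq_of_ne (ne_of_gt h) _

theorem NN_le {b c m : ℕ} (ν : Fin m → ℕ) :
    NN m c b ν ≤ b.factorial * Module.finrank ℂ (ED b c m ν) := by
  classical
  rw [NN]
  refine (card_le_ex _).trans (Nat.mul_le_mul_left _ (card_le_finrank _ _ (fun y hy => ?_)))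
  obtain ⟨F, hF, rfl⟩ := Finset.mem_image.1 hy
  obtain ⟨hF1, hF2⟩ := Finset.mem_filter.1 hF
  have hs : ∀ j, ∑ i, F j i = c := fun j => (Finset.mem_piAntidiag.1 (Fintype.mem_piFinset.1 hF1 j)).1
  choose w hw using fun j => H539Dim.exists_word (F j) (hs j)
  have hw2 : ∀ j, (∑ l, Finsupp.single (w j l) 1 : Fin m →₀ ℕ) =
      Finsupp.equivFunOnFinite.symm (F j) := fun j => Finsupp.ext (hw j)
  refine ⟨_, word_mem w (fun i => ?_), ?_⟩
  · have h1 : (univ.filter (fun p : Fin b × Fin c => w p.1 p.2 = i)).card =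
        ∑ j, (∑ l, Finsupp.single (w j l) 1 : Fin m →₀ ℕ) i := by
      rw [Finset.card_filter, ← Finset.univ_product_univ, Finset.sum_product]
      refine Finset.sum_congr rfl (fun j _ => ?_)
      rw [Finsupp.finsetSum_apply]
      refine Finset.sum_congr rfl (fun l _ => ?_)
      rw [Finsupp.single_apply]
    rw [h1, ← hF2, Finset.sum_apply]
    exact Finset.sum_congr rfl (fun j _ => hw j i)
  · have h1 := sepX_tprod (b := b) (a := c) (m := m) w
    refine h1.trans ?_
    rw [ex, Finset.sum_congr rfl (fun j _ => by rw [hw2 j])]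

end H822

open H822 in
/-- **K14** -/
theorem k14 : ∀ {b c m : ℕ} (ν : Fin m → ℕ), ∑ i, ν i = b * c → ∃ lam : Fin m → ℕ,
    ∑ i, lam i = b * c ∧
    (∀ k : Fin m, ∑ i ∈ univ.filter (· ≤ k), ν i ≤ ∑ i ∈ univ.filter (· ≤ k), lam i) ∧
    NN m c b ν ≤ b.factorial * ((b * c + 1) ^ (m * m + m) * plethMult b c m lam) := by
  intro b c m ν hν
  rcases Nat.eq_zero_or_pos (NN m c b ν) with h0 | h0
  · exact ⟨ν, hν, fun k => le_rfl, by rw [h0]; exact Nat.zero_le _⟩
  obtain ⟨lam, hr⟩ := rich (ED b c m ν) ED_stable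
  have h1 := NN_le (b := b) (c := c) ν
  have h2 : 0 < Module.finrank ℂ ↥(ED b c m ν ⊓ hwSpace lam (plethAct b c m)) := by
    by_contra h
    have h3 : Module.finrank ℂ ↥(ED b c m ν ⊓ hwSpace lam (plethAct b c m)) = 0 := by omega
    rw [h3, Nat.mul_zero] at hr
    have h4 : Module.finrank ℂ (ED b c m ν) = 0 := by omega
    rw [h4, Nat.mul_zero] at h1
    omega
  have hne : ED b c m ν ⊓ hwSpace lam (plethAct b c m) ≠ ⊥ := by
    intro h
    rw [h, finrank_bot] at h2
    exact lt_irrefl _ h2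
  obtain ⟨x, hx, hx0⟩ := Submodule.exists_mem_ne_zero_of_ne_bot hne
  refine ⟨lam, hw_sum hx.2 hx0, fun k => ED_weight k hx.1 hx.2 hx0, ?_⟩
  refine h1.trans (Nat.mul_le_mul_left _ (hr.trans (Nat.mul_le_mul_left _ ?_)))
  exact finrank_le_of_inj (LinearMap.id : Pleth b c m →ₗ[ℂ] Pleth b c m) _ _
    (fun x hx => hx.2) (fun x _ h => h)

end Vale.Agent.P181.KT
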