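import Vale.Agent.P181.R2.H182.VDefs
import Mathlib.Data.Nat.Choose.Multinomial

/-! P181, Theorem V, row V5: the value at the cluster configuration. -/

set_option autoImplicit false

open scoped TensorProduct
open Finset

namespace Vale.Agent.P181.VT

open Vale.Agent.P181 Vale.Agent.P181.H280 Vale.Agent.P181.FR

namespace H822V

lemma polar_pow {k e N : ℕ} (τ : Fin N → Fin k → ℂ) (α : Fin N → ℂ) (h : Polar k e τ α) :
    ∑ i, α i * (∑ β, τ i β) ^ (k * e) =
      (Nat.multinomial (univ : Finset (Fin k)) (fun _ => e) : ℂ) := by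
  classical
  have h1 : ∀ i, α i * (∑ β, τ i β) ^ (k * e) =
      ∑ n ∈ (univ : Finset (Fin k)).piAntidiag (k * e),
        (Nat.multinomial (univ : Finset (Fin k)) n : ℂ) * (α i * ∏ β, τ i β ^ n β) := by
    intro i
    rw [Finset.sum_pow_eq_sum_piAntidiag, Finset.mul_sum]
    refine Finset.sum_congr rfl (fun n _ => ?_)
    ring
  rw [Finset.sum_congr rfl (fun i _ => h1 i), Finset.sum_comm]
  have h2 : ∀ n ∈ (univ : Finset (Fin k)).piAntidiag (k * e),
      ∑ i, (Nat.multinomial (univ : Finset (Fin k)) n : ℂ) * (α i * ∏ β, τ i β ^ n β) =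
        if n = fun _ => e then (Nat.multinomial (univ : Finset (Fin k)) n : ℂ) else 0 := by
    intro n hn
    rw [← Finset.mul_sum, h n (Finset.mem_piAntidiag.1 hn).1, mul_ite, mul_one, mul_zero]
  rw [Finset.sum_congr rfl h2, Finset.sum_ite_eq']
  rw [if_pos]
  rw [Finset.mem_piAntidiag]
  refine ⟨?_, fun i _ => Finset.mem_univ i⟩
  rw [Finset.sum_const, Finset.card_univ, Fintype.card_fin, smul_eq_mul]

end H822V

open H822V in
/-- **V5**: the value at the cluster configuration. -/
theorem v5 : ∀ {r k c N N0 N1 : ℕ} (τ : Fin N → Fin k → ℂ) (α : Fin N → ℂ)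
  (q : (Fin (nn r) → Fin (r + 1) → ℂ) → ℂ) (z : Fin (nn r) → Fin (r + 1) → ℂ),
  Polar k (nn r * c) τ α → SepQ r N0 N1 q z → ∃ C : ℂ, C ≠ 0 ∧
  ∀ Φ : Matrix (Fin (r + 1)) (Fin (r + 1)) ℂ → ℂ,
    (∀ (s : ℂ) (X : Matrix (Fin (r + 1)) (Fin (r + 1)) ℂ), Φ (s • X) = s ^ (k * nn r * c) * Φ X) →
    ∑ σ : Equiv.Perm (Fin (k * nn r)),
      QQ q (fun j => z (finProdFinEquiv.symm (σ j)).2) *
        ∑ i, α i * Φ (YY (τ i) (fun j => z (finProdFinEquiv.symm (σ j)).2)) = C * Φ (Yb z) := by
  classical
  intro r k c N N0 N1 τ α q z hP hS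
  obtain ⟨hq1, hq2, hqz, hq0, hY⟩ := hS
  let S : Finset (Equiv.Perm (Fin (k * nn r))) := univ.filter (fun σ =>
    ∀ β : Fin k, (fun s : Fin (nn r) =>
      (finProdFinEquiv.symm (σ (finProdFinEquiv (β, s)))).2) = id)
  refine ⟨(S.card : ℂ) * ((q z) ^ k *
    (Nat.multinomial (univ : Finset (Fin k)) (fun _ => nn r * c) : ℂ)), ?_, ?_⟩
  · have h1 : S.card ≠ 0 := by
      apply Finset.card_ne_zero_of_mem (a := (1 : Equiv.Perm (Fin (k * nn r))))
      refine Finset.mem_filter.2 ⟨Finset.mem_univ _, fun β => ?_⟩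
      funext s
      show (finProdFinEquiv.symm (finProdFinEquiv (β, s))).2 = s
      rw [Equiv.symm_apply_apply]
    have h2 : Nat.multinomial (univ : Finset (Fin k)) (fun _ => nn r * c) ≠ 0 :=
      (Nat.multinomial_pos _ _).ne'
    exact mul_ne_zero (Nat.cast_ne_zero.2 h1) (mul_ne_zero (pow_ne_zero _ hqz)
      (Nat.cast_ne_zero.2 h2))
  · intro Φ hΦ
    have hval : ∀ σ : Equiv.Perm (Fin (k * nn r)),
        QQ q (fun j => z (finProdFinEquiv.symm (σ j)).2) *
          ∑ i, α i * Φ (YY (τ i) (fun j => z (finProdFinEquiv.symm (σ j)).2)) =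
        if σ ∈ S then (q z) ^ k *
          (Nat.multinomial (univ : Finset (Fin k)) (fun _ => nn r * c) : ℂ) * Φ (Yb z)
        else 0 := by
      intro σ
      by_cases h : σ ∈ S
      · rw [if_pos h]
        have h1 := (Finset.mem_filter.1 h).2
        have h2 : ∀ β : Fin k,
            pt (fun j : Fin (k * nn r) => z (finProdFinEquiv.symm (σ j)).2) β = z := by
          intro β
          funext s
          show z ((fun s : Fin (nn r) =>
            (finProdFinEquiv.symm (σ (finProdFinEquiv (β, s)))).2) s) = z s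
          rw [h1 β]
          rfl
        have h3 : QQ q (fun j : Fin (k * nn r) => z (finProdFinEquiv.symm (σ j)).2) =
            (q z) ^ k := by
          rw [QQ, Finset.prod_congr rfl (fun β _ => by rw [h2 β]), Finset.prod_const,
            Finset.card_univ, Fintype.card_fin]
        have h4 : ∀ i, YY (τ i) (fun j : Fin (k * nn r) => z (finProdFinEquiv.symm (σ j)).2) =
            (∑ β, τ i β) • Yb z := by
          intro i
          rw [YY, Finset.sum_smul]
          exact Finset.sum_congr rfl (fun β _ => by rw [h2 β])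
        rw [h3]
        have h5 : ∑ i, α i * Φ (YY (τ i)
            (fun j : Fin (k * nn r) => z (finProdFinEquiv.symm (σ j)).2)) =
            (∑ i, α i * (∑ β, τ i β) ^ (k * (nn r * c))) * Φ (Yb z) := by
          rw [Finset.sum_mul]
          refine Finset.sum_congr rfl (fun i _ => ?_)
          rw [h4 i, hΦ, mul_assoc k (nn r) c]
          ring
        rw [h5, polar_pow τ α hP]
        ring
      · rw [if_neg h]
        have h1 : ∃ β : Fin k, (fun s : Fin (nn r) =>
            (finProdFinEquiv.symm (σ (finProdFinEquiv (β, s)))).2) ≠ id := by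
          by_contra hc
          push Not at hc
          exact h (Finset.mem_filter.2 ⟨Finset.mem_univ _, hc⟩)
        obtain ⟨β, hβ⟩ := h1
        have h2 : QQ q (fun j : Fin (k * nn r) => z (finProdFinEquiv.symm (σ j)).2) = 0 := by
          rw [QQ]
          exact Finset.prod_eq_zero (Finset.mem_univ β) (hq0 _ hβ)
        rw [h2, zero_mul]
    rw [Finset.sum_congr rfl (fun σ _ => hval σ), Finset.sum_ite_mem, Finset.univ_inter,
      Finset.sum_const, nsmul_eq_mul]
    ring

end Vale.Agent.P181.VT
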