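import Vale.Agent.P181.R2.H822.W5
import Vale.Agent.P181.R2.H182.PtMul

/-! P181, Theorem Y, row Y3 (`gap_core`): an arbitrary rich weight inside the gaps. -/

set_option autoImplicit false

open Finset

namespace Vale.Agent.P181.FR

open Vale.Agent.P181 Vale.Agent.P181.H280

namespace H822Y

/-- Greedy choice. -/
lemma greedy (W : ℕ) (n : ℕ → ℕ) (S : Finset ℕ) (hW : ∀ j ∈ S, j ≤ W) (T : ℕ)
    (hT : T ≤ ∑ j ∈ S, j * n j) :
    ∃ x : ℕ → ℕ, (∀ j, x j ≤ n j) ∧ T ≤ ∑ j ∈ S, j * x j ∧ ∑ j ∈ S, j * x j ≤ T + W := by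
  classical
  induction S using Finset.induction_on generalizing T with
  | empty => exact ⟨fun _ => 0, fun j => Nat.zero_le _, by simpa using hT, by simp⟩
  | insert j S hj ih =>
    by_cases h : T ≤ ∑ j ∈ S, j * n j
    · obtain ⟨x, hx, h1, h2⟩ := ih (fun k hk => hW k (Finset.mem_insert_of_mem hk)) T h
      have e : ∑ k ∈ insert j S, k * (Function.update x j 0) k = ∑ k ∈ S, k * x k := by
        rw [Finset.sum_insert hj, Function.update_self, mul_zero, zero_add]
        exact Finset.sum_congr rfl (fun k hk => by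
          rw [Function.update_of_ne (show k ≠ j from fun hkj => hj (hkj ▸ hk))])
      refine ⟨Function.update x j 0, fun k => ?_, by rw [e]; exact h1, by rw [e]; exact h2⟩
      by_cases hk : k = j
      · rw [hk, Function.update_self]; exact Nat.zero_le _
      · rw [Function.update_of_ne hk]; exact hx k
    · push Not at h
      rw [Finset.sum_insert hj] at hT
      have hWj := hW j (Finset.mem_insert_self _ _)
      obtain ⟨D, hD⟩ : ∃ D, T = ∑ k ∈ S, k * n k + D := ⟨T - ∑ k ∈ S, k * n k, by omega⟩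
      have hD0 : 0 < D := by omega
      have hD1 : D ≤ j * n j := by omega
      have hj0 : 0 < j := by
        rcases Nat.eq_zero_or_pos j with h0 | h0
        · rw [h0, zero_mul] at hD1
          omega
        · exact h0
      -- the least `y` with `D ≤ j * y`
      obtain ⟨y, hy1, hy2⟩ : ∃ y, D ≤ j * y ∧ ∀ z < y, ¬ D ≤ j * z :=
        ⟨Nat.find ⟨n j, hD1⟩, Nat.find_spec (p := fun y => D ≤ j * y) ⟨n j, hD1⟩,
          fun z hz => Nat.find_min (p := fun y => D ≤ j * y) ⟨n j, hD1⟩ hz⟩
      have hyn : y ≤ n j := by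
        by_contra hc
        exact hy2 (n j) (not_le.1 hc) hD1
      have hy0 : 0 < y := by
        rcases Nat.eq_zero_or_pos y with h0 | h0
        · rw [h0, mul_zero] at hy1
          omega
        · exact h0
      have hy3 : j * y ≤ D + j := by
        have h3 := hy2 (y - 1) (by omega)
        have h4 : j * y = j * (y - 1) + j := by
          obtain ⟨z, rfl⟩ : ∃ z, y = z + 1 := ⟨y - 1, by omega⟩
          rw [Nat.add_sub_cancel, mul_add, mul_one]
        omega
      have e : ∑ k ∈ insert j S, k * (Function.update n j y) k =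
          j * y + ∑ k ∈ S, k * n k := by
        rw [Finset.sum_insert hj, Function.update_self]
        congr 1
        exact Finset.sum_congr rfl (fun k hk => by
          rw [Function.update_of_ne (show k ≠ j from fun hkj => hj (hkj ▸ hk))])
      refine ⟨Function.update n j y, fun k => ?_, by rw [e]; omega, by rw [e]; omega⟩
      by_cases hk : k = j
      · rw [hk, Function.update_self]; exact hyn
      · rw [Function.update_of_ne hk]

/-- The constant of Y3. -/
def KK (m : ℕ) : ℕ := m * m * m + 3 * m * (m + 1) + 6 * (m + 1) + m + 1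

lemma split {m i a b B c : ℕ} {u g : ℕ → ℕ} (hi : 1 ≤ i) (him : i ≤ m)
    (hB : 4 * (m + 1) ≤ B) (hc : 1 + c ≤ a) (hb : i * B + KK m ≤ b) (hug : ∀ j, u j ≤ g j)
    (hu : ∑ j ∈ Icc 1 m, j * u j = c * (i * B)) (hg : ∑ j ∈ Icc 1 m, j * g j = a * b)
    (hgi : u i + KK m * a ≤ g i) :
    ∃ v : ℕ → ℕ, (∀ j, u j + v j ≤ g j) ∧ ∑ j ∈ Icc 1 m, j * v j = (a - c) * (i * B) ∧
      3 * (m + 1) * (a - c) ≤ v i ∧ v i + u i + 3 * (m + 1) * a ≤ g i := by
  classical
  have hmem : i ∈ Icc 1 m := Finset.mem_Icc.2 ⟨hi, him⟩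
  set S := (Icc 1 m).erase i with hS
  set d : ℕ → ℕ := fun j => g j - u j with hd
  set n : ℕ → ℕ := fun j => d j / i with hn
  -- sums
  have h1 : ∑ j ∈ Icc 1 m, j * d j + c * (i * B) = a * b := by
    rw [← hu, ← hg, ← Finset.sum_add_distrib]
    refine Finset.sum_congr rfl (fun j _ => ?_)
    rw [← mul_add]
    congr 1
    exact Nat.sub_add_cancel (hug j)
  have h2 : i * d i + ∑ j ∈ S, j * d j = ∑ j ∈ Icc 1 m, j * d j :=
    Finset.add_sum_erase _ (fun j => j * d j) hmem
  have h3 : ∑ j ∈ S, j * d j ≤ i * ∑ j ∈ S, j * n j + m * (m * i) := by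
    have h4 : ∀ j ∈ S, j * d j ≤ i * (j * n j) + m * i := by
      intro j hj
      have hjm : j ≤ m := (Finset.mem_Icc.1 (Finset.mem_of_mem_erase hj)).2
      have h5 : d j ≤ i * n j + i := by
        have h6 := Nat.div_add_mod (d j) i
        have h7 := Nat.mod_lt (d j) hi
        show d j ≤ i * (d j / i) + i
        omega
      calc j * d j ≤ j * (i * n j + i) := Nat.mul_le_mul_left _ h5
        _ = i * (j * n j) + j * i := by ring
        _ ≤ i * (j * n j) + m * i := Nat.add_le_add_left (Nat.mul_le_mul_right _ hjm) _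
    refine (Finset.sum_le_sum h4).trans ?_
    rw [Finset.sum_add_distrib, ← Finset.mul_sum, Finset.sum_const, smul_eq_mul]
    refine Nat.add_le_add_left (Nat.mul_le_mul_right _ ?_) _
    refine (Finset.card_erase_le).trans ?_
    rw [Nat.card_Icc]
    omega
  set X := ∑ j ∈ S, j * n j with hX
  have hdi : KK m * a ≤ d i := by
    show KK m * a ≤ g i - u i
    omega
  have hKa : KK m * a = m * m * m * a + 3 * m * (m + 1) * a + 6 * (m + 1) * a + m * a + a := by
    rw [KK]; ring
  have hP : (a - c) * B + c * B = a * B := by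
    rw [← add_mul, Nat.sub_add_cancel (by omega)]
  -- capacity
  have hcap : (a - c) * B + 3 * (m + 1) * a ≤ X + d i := by
    refine Nat.le_of_mul_le_mul_left ?_ hi
    have h4 : a * (i * B + KK m) ≤ a * b := Nat.mul_le_mul_left _ hb
    have h5 : a * (i * B + KK m) = i * (a * B) + KK m * a := by ring
    have h6 : i * (a * B) = i * ((a - c) * B) + c * (i * B) := by rw [← hP]; ring
    have h7 : m * (m * i) ≤ m * m * m * a := by
      calc m * (m * i) = m * m * i * 1 := by ring
        _ ≤ m * m * m * a := Nat.mul_le_mul (Nat.mul_le_mul_left _ him) (by omega)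
    have h8 : i * (3 * (m + 1) * a) ≤ 3 * m * (m + 1) * a := by
      calc i * (3 * (m + 1) * a) ≤ m * (3 * (m + 1) * a) := Nat.mul_le_mul_right _ him
        _ = 3 * m * (m + 1) * a := by ring
    have h9 : i * ((a - c) * B + 3 * (m + 1) * a) =
        i * ((a - c) * B) + i * (3 * (m + 1) * a) := mul_add _ _ _
    have h10 : i * (X + d i) = i * X + i * d i := mul_add _ _ _
    have h11 : KK m * a = a * KK m := mul_comm _ _
    rw [h9, h10]
    omega
  obtain ⟨x, hx1, hx2, hx3⟩ := greedy m n S
    (fun j hj => (Finset.mem_Icc.1 (Finset.mem_of_mem_erase hj)).2)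
    ((a - c) * B - (d i - 3 * (m + 1) * a)) (by omega)
  set Y := ∑ j ∈ S, j * x j with hY
  have hP2 : 4 * (m + 1) * (a - c) ≤ (a - c) * B := by
    rw [mul_comm (a - c) B]
    exact Nat.mul_le_mul_right _ hB
  have hP3 : m ≤ (m + 1) * (a - c) := by
    have : (m + 1) * 1 ≤ (m + 1) * (a - c) := Nat.mul_le_mul_left _ (by omega)
    omega
  have hP4 : 4 * (m + 1) * (a - c) = 3 * (m + 1) * (a - c) + (m + 1) * (a - c) := by ring
  have hP5 : 3 * (m + 1) * (a - c) ≤ 3 * (m + 1) * a := Nat.mul_le_mul_left _ (by omega)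
  have hP6 : 6 * (m + 1) * a = 3 * (m + 1) * a + 3 * (m + 1) * a := by ring
  have hP7 : m ≤ m * a := Nat.le_mul_of_pos_right _ (by omega)
  have hYu : Y + 3 * (m + 1) * (a - c) ≤ (a - c) * B := by
    omega
  refine ⟨Function.update (fun j => i * x j) i ((a - c) * B - Y), fun j => ?_, ?_, ?_, ?_⟩
  · by_cases hj : j = i
    · subst hj
      rw [Function.update_self]
      have hdj : d j = g j - u j := rfl
      omega
    · rw [Function.update_of_ne hj]
      have h4 : i * x j ≤ i * (d j / i) := Nat.mul_le_mul_left _ (hx1 j)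
      have h5 : i * (d j / i) ≤ d j := Nat.mul_div_le _ _
      have hdj : d j = g j - u j := rfl
      have := hug j
      show u j + i * x j ≤ g j
      omega
  · rw [← Finset.add_sum_erase _ _ hmem, Function.update_self]
    have h4 : ∑ j ∈ (Icc 1 m).erase i,
        j * (Function.update (fun j => i * x j) i ((a - c) * B - Y)) j = i * Y := by
      rw [hY, Finset.mul_sum]
      refine Finset.sum_congr rfl (fun j hj => ?_)
      rw [Function.update_of_ne (Finset.ne_of_mem_erase hj)]
      ring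
    rw [h4, ← mul_add, Nat.sub_add_cancel (by omega)]
    ring
  · rw [Function.update_self]
    omega
  · rw [Function.update_self]
    have hdj : d i = g i - u i := rfl
    have := hug i
    omega

theorem gap_core_of {m i : ℕ} (hi : 2 ≤ i) (him : i ≤ m)
    (pos_all : ∃ a0 : ℕ, ∀ (a B : ℕ) (g : ℕ → ℕ),
      a0 ≤ a → 3 * (m + 1) * a ≤ g i → ∑ j ∈ Finset.Icc 1 m, j * g j = a * B →
      Pos B a m (gw m g)) :
    ∃ K : ℕ, ∀ (a b B c S : ℕ) (u g : ℕ → ℕ),
      i ∣ B → K ≤ B → K + c ≤ a → B + K ≤ b → (∀ j, u j ≤ g j) →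
      ∑ j ∈ Finset.Icc 1 m, j * u j = c * B → ∑ j ∈ Finset.Icc 1 m, j * g j = a * b →
      u i + K * a ≤ g i → S ≤ plethMult B c m (gw m u) → S ≤ plethMult b a m (gw m g) := by
  obtain ⟨a0, hpos⟩ := pos_all
  refine ⟨KK m + 4 * m * (m + 1) + a0 + 1, ?_⟩
  intro a b B c S u g hiB hKB hKc hBb hug hu hg hgi hS
  obtain ⟨B', rfl⟩ := hiB
  have hB' : 4 * (m + 1) ≤ B' := by
    by_contra h
    have h1 : i * B' ≤ m * (4 * (m + 1)) := Nat.mul_le_mul him (by omega)
    have h2 : m * (4 * (m + 1)) = 4 * m * (m + 1) := by ring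
    omega
  obtain ⟨v, hv1, hv2, hv3, hv4⟩ := split (by omega) him hB' (by omega) (by omega) hug hu hg
    (le_trans (Nat.add_le_add_left (Nat.mul_le_mul_right _ (by omega)) _) hgi)
  -- the three factors
  have hp1 : Pos (i * B') (a - c) m (gw m v) := hpos (a - c) (i * B') v (by omega) hv3 hv2
  have h1 := plethMult_pt (c := c) (lam := gw m u) hp1
  rw [Nat.sub_add_cancel (by omega : c ≤ a), ← H822W.gw_add] at h1
  set w : ℕ → ℕ := fun j => g j - (u j + v j) with hw
  have hgw : g = (v + u) + w := by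
    funext j
    show g j = (v j + u j) + (g j - (u j + v j))
    have := hv1 j
    omega
  have hws : ∑ j ∈ Finset.Icc 1 m, j * w j = a * (b - i * B') := by
    have h2 : ∑ j ∈ Finset.Icc 1 m, j * g j = ∑ j ∈ Finset.Icc 1 m, j * v j +
        ∑ j ∈ Finset.Icc 1 m, j * u j + ∑ j ∈ Finset.Icc 1 m, j * w j := by
      rw [← Finset.sum_add_distrib, ← Finset.sum_add_distrib]
      refine Finset.sum_congr rfl (fun j _ => ?_)
      rw [← mul_add, ← mul_add]
      congr 1
      exact congrFun hgw j
    have h3 : (a - c) * (i * B') + c * (i * B') = a * (i * B') := by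
      rw [← add_mul, Nat.sub_add_cancel (by omega)]
    rw [hg, hv2, hu] at h2
    rw [Nat.mul_sub]
    omega
  have hp2 : Pos (b - i * B') a m (gw m w) := by
    refine hpos a _ w (by omega) ?_ hws
    show 3 * (m + 1) * a ≤ g i - (u i + v i)
    omega
  have h2 := plethMult_mul (b := i * B') (lam := gw m (v + u)) hp2
  rw [← H822W.gw_add, ← hgw, Nat.add_sub_cancel' (by omega : i * B' ≤ b)] at h2
  exact hS.trans (h1.trans h2)

end H822Y

end Vale.Agent.P181.FR
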