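import Vale.Agent.P181.R2.H959.FMul
import Vale.Agent.P181.R2.H959.WDefs
import Vale.Agent.P181.R2.H277.FR4

/-! P181, Theorem W, row W5: positivity for all numbers of points (`pos_all`) from the
separation theorem `sym_pos` for a bounded number of points, by ring products with blocks. -/

set_option autoImplicit false

open Finset

namespace Vale.Agent.P181.FR

open Vale.Agent.P181 Vale.Agent.P181.H280

namespace H822W

lemma gw_add (m : ℕ) (g g' : ℕ → ℕ) : gw m (g + g') = gw m g + gw m g' := by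
  funext k
  simp only [gw, Pi.add_apply, Finset.sum_add_distrib]

lemma gw_single {m j : ℕ} (c : ℕ) (hjm : j ≤ m) :
    gw m (Pi.single j c) = c • om m j := by
  funext k
  simp only [gw, om, Pi.smul_apply, smul_eq_mul]
  rw [Finset.sum_pi_single']
  by_cases h : (k : ℕ) < j
  · rw [if_pos h, if_pos (Finset.mem_Ioc.2 ⟨h, hjm⟩), mul_one]
  · rw [if_neg h, if_neg (fun h2 => h (Finset.mem_Ioc.1 h2).1), mul_zero]

lemma sum_single {m j : ℕ} (c : ℕ) (hj : 1 ≤ j) (hjm : j ≤ m) :
    ∑ l ∈ Icc 1 m, l * (Pi.single j c : ℕ → ℕ) l = j * c := by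
  rw [Finset.sum_eq_single j]
  · rw [Pi.single_eq_same]
  · intro l _ hl
    rw [Pi.single_eq_of_ne hl, mul_zero]
  · intro h
    exact absurd (Finset.mem_Icc.2 ⟨hj, hjm⟩) h

lemma peel {m a B j c b1 : ℕ} (ha : 0 < a) (g : ℕ → ℕ) (hj : 1 ≤ j) (hjm : j ≤ m)
    (hc : c ≤ g j) (hb : j * c = a * b1) (hs : ∑ l ∈ Icc 1 m, l * g l = a * B)
    (hblock : Pos b1 a m (c • om m j))
    (ih : ∀ g' : ℕ → ℕ, ∑ l ∈ Icc 1 m, l * g' l = a * (B - b1) → (∀ l, l ≠ j → g' l = g l) →
      g' j = g j - c → Pos (B - b1) a m (gw m g')) : Pos B a m (gw m g) := by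
  have hg : g = Function.update g j (g j - c) + Pi.single j c := by
    funext l
    by_cases h : l = j
    · subst h
      rw [Pi.add_apply, Function.update_self, Pi.single_eq_same, Nat.sub_add_cancel hc]
    · rw [Pi.add_apply, Function.update_of_ne h, Pi.single_eq_of_ne h, add_zero]
  have h1 : ∑ l ∈ Icc 1 m, l * (Function.update g j (g j - c)) l + a * b1 = a * B := by
    rw [← hs, ← hb, ← sum_single c hj hjm, ← Finset.sum_add_distrib]
    refine Finset.sum_congr rfl (fun l _ => ?_)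
    rw [← mul_add]
    conv_rhs => rw [hg]
    rfl
  have h2 : b1 ≤ B := by
    by_contra h
    have h3 : a * B < a * b1 := Nat.mul_lt_mul_of_pos_left (not_le.1 h) ha
    omega
  have h3 := ih (Function.update g j (g j - c)) (by rw [Nat.mul_sub]; omega)
    (fun l hl => Function.update_of_ne hl _ _) (Function.update_self _ _ _)
  have h4 := h3.mul hblock
  rw [← gw_single c hjm, ← gw_add, ← hg, Nat.sub_add_cancel h2] at h4
  exact h4

theorem pos_all_of {m i : ℕ} (hi : 2 ≤ i) (him : i ≤ m)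
    (sym_pos : ∀ {B j : ℕ}, 2 ≤ j → j ≤ m → m ≤ B → 2 * j + 1 ≤ B →
      ∃ K : ℕ, ∀ (a : ℕ) (g : ℕ → ℕ), K ≤ a → K ≤ g j →
      ∑ l ∈ Finset.Icc 1 m, l * g l = a * B → Pos B a m (gw m g)) :
    ∃ a0 : ℕ, ∀ (a B : ℕ) (g : ℕ → ℕ),
    a0 ≤ a → 3 * m * a ≤ g i → ∑ j ∈ Finset.Icc 1 m, j * g j = a * B →
    Pos B a m (gw m g) := by
  have h : ∀ B j : ℕ, ∃ K : ℕ, 2 ≤ j → j ≤ m → m ≤ B → 2 * j + 1 ≤ B →
      ∀ (a : ℕ) (g : ℕ → ℕ), K ≤ a → K ≤ g j →
      ∑ l ∈ Finset.Icc 1 m, l * g l = a * B → Pos B a m (gw m g) := by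
    intro B j
    by_cases h : 2 ≤ j ∧ j ≤ m ∧ m ≤ B ∧ 2 * j + 1 ≤ B
    · obtain ⟨K, hK⟩ := sym_pos h.1 h.2.1 h.2.2.1 h.2.2.2
      exact ⟨K, fun _ _ _ _ => hK⟩
    · exact ⟨0, fun h1 h2 h3 h4 => absurd ⟨h1, h2, h3, h4⟩ h⟩
  choose K hK using h
  set M := 6 * m * m * m with hM
  have hKle : ∀ B j, B ≤ M → j ≤ m →
      K B j ≤ ∑ B ∈ range (M + 1), ∑ j ∈ range (m + 1), K B j := by
    intro B j hB hj
    have h1 : K B j ≤ ∑ j ∈ range (m + 1), K B j :=
      Finset.single_le_sum (f := fun j => K B j) (fun _ _ => Nat.zero_le _)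
        (Finset.mem_range.2 (Nat.lt_succ_of_le hj))
    exact h1.trans (Finset.single_le_sum (f := fun B => ∑ j ∈ range (m + 1), K B j)
      (fun _ _ => Nat.zero_le _) (Finset.mem_range.2 (Nat.lt_succ_of_le hB)))
  refine ⟨1 + ∑ B ∈ range (M + 1), ∑ j ∈ range (m + 1), K B j, fun a B => ?_⟩
  induction B using Nat.strong_induction_on with
  | _ B ih =>
  intro g ha0 hgi hs
  have ha : 0 < a := by omega
  have hm : 2 ≤ m := hi.trans him
  -- the blocks
  have hblock : ∀ j, 2 ≤ j → j ≤ m → Pos (3 * j * m) a m ((3 * m * a) • om m j) := by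
    intro j hj hjm
    rw [← gw_single (3 * m * a) hjm]
    have h1 : 3 * j * m ≤ M := by
      have : 3 * j * m ≤ 3 * m * m := by gcongr
      refine this.trans ?_
      have h2 : 3 * m * m = 3 * m * m * 1 := (mul_one _).symm
      rw [h2, hM]
      gcongr <;> omega
    refine hK (3 * j * m) j hj hjm ?_ ?_ a _ ?_ ?_ ?_
    · nlinarith
    · nlinarith
    · exact (hKle _ j h1 hjm).trans (by omega)
    · rw [Pi.single_eq_same]
      refine (hKle _ j h1 hjm).trans ?_
      have : a ≤ 3 * m * a := Nat.le_mul_of_pos_left a (by omega)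
      omega
    · rw [sum_single _ (by omega) hjm]
      ring
  by_cases hA : ∃ j, 2 ≤ j ∧ j ≤ m ∧ 3 * m * a + (if j = i then 3 * m * a else 0) ≤ g j
  · obtain ⟨j, hj, hjm, hgj⟩ := hA
    refine peel (b1 := 3 * j * m) ha g (by omega) hjm (c := 3 * m * a) (by omega) (by ring) hs
      (hblock j hj hjm) (fun g' h1 h2 h3 => ?_)
    by_cases hB0 : 3 * j * m ≤ B
    · have hpos : 0 < 3 * j * m := Nat.mul_pos (by omega) (by omega)
      refine ih (B - 3 * j * m) (by omega) g' ha0 ?_ h1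
      by_cases hji : j = i
      · rw [if_pos hji] at hgj
        rw [← hji, h3]
        omega
      · rw [h2 i (Ne.symm hji)]
        exact hgi
    · exfalso
      have h4 : j * g j ≤ a * B := by
        rw [← hs]
        exact Finset.single_le_sum (f := fun l => l * g l) (fun _ _ => Nat.zero_le _)
          (Finset.mem_Icc.2 ⟨by omega, hjm⟩)
      have h5 : a * B < a * (3 * j * m) := Nat.mul_lt_mul_of_pos_left (not_le.1 hB0) ha
      have h6 : j * (3 * m * a) ≤ j * g j := Nat.mul_le_mul_left _ (by omega)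
      have h7 : j * (3 * m * a) = a * (3 * j * m) := by ring
      omega
  by_cases hA1 : a ≤ g 1
  · have hg0 : Pos 1 a m (a • om m 1) := by
      obtain ⟨n, rfl⟩ : ∃ n, m = n + 1 := ⟨m - 1, by omega⟩
      exact gen0
    refine peel (b1 := 1) ha g le_rfl (by omega) (c := a) hA1 (by ring) hs hg0
      (fun g' h1 h2 h3 => ?_)
    by_cases hB0 : B = 0
    · exfalso
      have h4 : 1 * g 1 ≤ a * B := by
        rw [← hs]
        exact Finset.single_le_sum (f := fun l => l * g l) (fun _ _ => Nat.zero_le _)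
          (Finset.mem_Icc.2 ⟨le_rfl, by omega⟩)
      rw [hB0, mul_zero] at h4
      omega
    · refine ih (B - 1) (by omega) g' ha0 ?_ h1
      rw [h2 i (by omega)]
      exact hgi
  push Not at hA hA1
  have hle : ∀ j ∈ Icc 1 m, j * g j ≤ m * (6 * m * a) := by
    intro j hj
    obtain ⟨h1, h2⟩ := Finset.mem_Icc.1 hj
    refine Nat.mul_le_mul h2 ?_
    rcases Nat.lt_or_ge 1 j with h3 | h3
    · have h4 := hA j h3 h2
      have h5 : 6 * m * a = 3 * m * a + 3 * m * a := by ring
      rw [h5]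
      refine h4.le.trans (Nat.add_le_add_left ?_ _)
      split_ifs
      · exact le_rfl
      · exact Nat.zero_le _
    · have h4 : j = 1 := by omega
      rw [h4]
      have : a ≤ 6 * m * a := Nat.le_mul_of_pos_left a (by omega)
      omega
  have hBM : B ≤ M := by
    have h1 : a * B ≤ a * M := by
      rw [← hs]
      refine (Finset.sum_le_sum hle).trans ?_
      rw [Finset.sum_const, Nat.card_Icc, smul_eq_mul, hM]
      apply le_of_eq
      rw [Nat.add_sub_cancel]
      ring
    exact Nat.le_of_mul_le_mul_left h1 ha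
  have hBi : 3 * m * i ≤ B := by
    have h4 : i * g i ≤ a * B := by
      rw [← hs]
      exact Finset.single_le_sum (f := fun l => l * g l) (fun _ _ => Nat.zero_le _)
        (Finset.mem_Icc.2 ⟨by omega, him⟩)
    have h5 : a * (3 * m * i) ≤ a * B := by
      refine le_trans ?_ h4
      calc a * (3 * m * i) = i * (3 * m * a) := by ring
        _ ≤ _ := Nat.mul_le_mul_left _ hgi
    exact Nat.le_of_mul_le_mul_left h5 ha
  refine hK B i hi him ?_ ?_ a g ?_ ?_ hs
  · nlinarith
  · nlinarith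
  · exact (hKle _ i hBM him).trans (by omega)
  · refine (hKle _ i hBM him).trans ?_
    have : a ≤ 3 * m * a := Nat.le_mul_of_pos_left a (by omega)
    omega

end H822W

end Vale.Agent.P181.FR
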