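import Vale.Agent.P181.R2.H959.FDefs

/-! P181.FewRowsInterior, rows R8 and R9 from the rows R6 and R7 (helper822). -/

set_option autoImplicit false

open scoped TensorProduct

namespace Vale.Agent.P181.FR

open Vale.Agent.P181 Vale.Agent.P181.H280 Vale.Agent.P181.H54

/-- statement of R6 (for types in `Type`) -/
def PigStmt : Prop := ∀ {M : Type} [AddCommGroup M] [Module ℂ M] [Module.Finite ℂ M]
    (E : Submodule ℂ M) (T : M →ₗ[ℂ] M) (_ : ∀ x ∈ E, T x ∈ E) {N : ℕ} (_ : 0 < N) (c : ℕ → ℂ)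
    (_ : ∀ x ∈ E, Polynomial.aeval T (∏ k ∈ Finset.range N,
      (Polynomial.X - Polynomial.C (c k))) x = 0),
    ∃ k < N, Module.finrank ℂ E ≤ N * Module.finrank ℂ
      ↥(E ⊓ LinearMap.ker (T - c k • LinearMap.id))

/-- the pigeonhole principle with a submodule given by its elements -/
lemma pig_mem (hpig : PigStmt) {M : Type} [AddCommMonoid M] [Module ℂ M] [Module.Finite ℂ M]
    (E : Submodule ℂ M) (T : M →ₗ[ℂ] M) (hT : ∀ x ∈ E, T x ∈ E) {N : ℕ} (hN : 0 < N) (c : ℕ → ℂ)
    (h : ∀ x ∈ E, Polynomial.aeval T (∏ k ∈ Finset.range N,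
      (Polynomial.X - Polynomial.C (c k))) x = 0) :
    ∃ k < N, ∀ F : Submodule ℂ M, (∀ x ∈ E, T x = c k • x → x ∈ F) →
      Module.finrank ℂ E ≤ N * Module.finrank ℂ F := by
  let _ := Module.addCommMonoidToAddCommGroup ℂ (M := M)
  obtain ⟨k, hk, h1⟩ := hpig E T hT hN c h
  refine ⟨k, hk, fun F hF => h1.trans (Nat.mul_le_mul_left _ ?_)⟩
  refine Submodule.finrank_mono ?_
  intro x hx
  refine hF x hx.1 ?_
  have h2 : (T - c k • (LinearMap.id : M →ₗ[ℂ] M)) x = 0 := hx.2
  rw [LinearMap.sub_apply, LinearMap.smul_apply, LinearMap.id_apply, sub_eq_zero] at h2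
  exact h2

lemma act_mul' {b a m : ℕ} (g h : Matrix (Fin m) (Fin m) ℂ) (x : Pleth b a m) :
    plethAct b a m (g * h) x = plethAct b a m g (plethAct b a m h x) := by
  have e : symMap a (Matrix.toLin' (g * h)) =
      symMap a (Matrix.toLin' g) ∘ₗ symMap a (Matrix.toLin' h) := by
    ext y
    rw [LinearMap.comp_apply, symMap_comp_apply, Matrix.toLin'_mul]
  have key : ∀ y : Sym[ℂ]^b (Sym[ℂ]^a (Fin m → ℂ)), symMap b (symMap a (Matrix.toLin' (g * h))) y =
      symMap b (symMap a (Matrix.toLin' g)) (symMap b (symMap a (Matrix.toLin' h)) y) := by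
    intro y
    rw [symMap_comp_apply, e]
  exact key x

lemma act_one' {b a m : ℕ} (x : Pleth b a m) : plethAct b a m 1 x = x := by
  have e : symMap a (Matrix.toLin' (1 : Matrix (Fin m) (Fin m) ℂ)) = LinearMap.id := by
    ext y
    rw [Matrix.toLin'_one, symMap_id_apply, LinearMap.id_apply]
  have key : ∀ y : Sym[ℂ]^b (Sym[ℂ]^a (Fin m → ℂ)), symMap b (symMap a
      (Matrix.toLin' (1 : Matrix (Fin m) (Fin m) ℂ))) y = y := by
    intro y
    rw [e, symMap_id_apply]
  exact key x

/-- support condition -/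
def Sup (m r : ℕ) (N : Matrix (Fin m) (Fin m) ℂ) : Prop :=
  ∀ p q : Fin m, ¬ (p < q ∧ (p : ℕ) * m + (m - 1 - (q : ℕ)) < r) → N p q = 0

lemma mem_US_iff {m r : ℕ} (u : Matrix (Fin m) (Fin m) ℂ) : u ∈ US m r ↔ Sup m r (u - 1) := by
  constructor
  · rintro ⟨h1, h2, h3⟩ p q hpq
    rw [Matrix.sub_apply]
    rcases lt_trichotomy p q with h | h | h
    · rw [Matrix.one_apply_ne h.ne, sub_zero]
      refine h3 p q h ?_
      by_contra h4
      exact hpq ⟨h, by omega⟩
    · subst h
      rw [h1, Matrix.one_apply_eq, sub_self]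
    · rw [Matrix.one_apply_ne h.ne', sub_zero]
      exact h2 p q h
  · intro h
    refine ⟨fun i => ?_, fun i j hij => ?_, fun i j hij hr => ?_⟩
    · have := h i i (fun h' => lt_irrefl _ h'.1)
      rw [Matrix.sub_apply, Matrix.one_apply_eq, sub_eq_zero] at this
      exact this
    · have := h i j (fun h' => lt_asymm h'.1 hij)
      rw [Matrix.sub_apply, Matrix.one_apply_ne hij.ne', sub_zero] at this
      exact this
    · have := h i j (fun h' => by omega)
      rw [Matrix.sub_apply, Matrix.one_apply_ne hij.ne, sub_zero] at this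
      exact this

lemma Sup.mul3 {m r : ℕ} {A N B : Matrix (Fin m) (Fin m) ℂ} (hA : ∀ i j, j < i → A i j = 0)
    (hB : ∀ i j, j < i → B i j = 0) (hN : Sup m r N) : Sup m r (A * N * B) := by
  intro p q hpq
  rw [Matrix.mul_apply]
  refine Finset.sum_eq_zero fun l _ => ?_
  rcases lt_or_ge q l with hl | hl
  · rw [hB l q hl, mul_zero]
  · have : (A * N) p l = 0 := by
      rw [Matrix.mul_apply]
      refine Finset.sum_eq_zero fun k _ => ?_
      rcases lt_or_ge k p with hk | hk
      · rw [hA p k hk, zero_mul]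
      · have : N k l = 0 := by
          refine hN k l fun h => hpq ⟨lt_of_le_of_lt hk (lt_of_lt_of_le h.1 hl), ?_⟩
          refine lt_of_le_of_lt ?_ h.2
          have h1 : (p : ℕ) * m ≤ (k : ℕ) * m := Nat.mul_le_mul_right _ hk
          have h2 : (l : ℕ) ≤ q := hl
          omega
        rw [this, mul_zero]
    rw [this, zero_mul]

lemma borel_inv {m : ℕ} {g : Matrix (Fin m) (Fin m) ℂ} (hg : IsBorel g) :
    ∃ h : Matrix (Fin m) (Fin m) ℂ, g * h = 1 ∧ h * g = 1 ∧ ∀ i j, j < i → h i j = 0 := by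
  have h1 : g.BlockTriangular id := fun i j hij => hg.1 i j hij
  have h2 : g.det ≠ 0 := by
    rw [Matrix.det_of_isUpperTriangular h1]
    exact Finset.prod_ne_zero_iff.2 fun i _ => hg.2 i
  have h3 : IsUnit g.det := isUnit_iff_ne_zero.2 h2
  let _ := g.invertibleOfIsUnitDet h3
  refine ⟨g⁻¹, Matrix.mul_nonsing_inv _ h3, Matrix.nonsing_inv_mul _ h3, fun i j hij => ?_⟩
  exact Matrix.blockTriangular_inv_of_blockTriangular h1 hij

lemma FixU_stable {b a m r : ℕ} {g : Matrix (Fin m) (Fin m) ℂ} (hg : IsBorel g)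
    {x : Pleth b a m} (hx : x ∈ FixU b a m r) : plethAct b a m g x ∈ FixU b a m r := by
  intro u hu
  obtain ⟨h, h1, h2, h3⟩ := borel_inv hg
  have hv : h * u * g ∈ US m r := by
    rw [mem_US_iff] at hu ⊢
    have e : h * u * g - 1 = h * (u - 1) * g := by
      rw [mul_sub, sub_mul, mul_one, h2]
    rw [e]
    exact hu.mul3 h3 hg.1
  have e2 : u * g = g * (h * u * g) := by
    rw [← mul_assoc, ← mul_assoc, h1, one_mul]
  rw [← act_mul', e2, act_mul']
  rw [hx _ hv]

lemma code_inj {m : ℕ} {p q i j : Fin m}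
    (h : (p : ℕ) * m + (m - 1 - (q : ℕ)) = (i : ℕ) * m + (m - 1 - (j : ℕ))) : p = i ∧ q = j := by
  have hp := p.2
  have hq := q.2
  have hi := i.2
  have hj := j.2
  have key : (p : ℕ) = i := by
    rcases lt_trichotomy (p : ℕ) i with h1 | h1 | h1
    · have h2 : ((p : ℕ) + 1) * m ≤ (i : ℕ) * m := Nat.mul_le_mul_right _ h1
      rw [add_mul, one_mul] at h2
      omega
    · exact h1
    · have h2 : ((i : ℕ) + 1) * m ≤ (p : ℕ) * m := Nat.mul_le_mul_right _ h1
      rw [add_mul, one_mul] at h2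
      omega
  have key2 : (q : ℕ) = j := by
    rw [key] at h
    omega
  exact ⟨Fin.ext key, Fin.ext key2⟩

lemma transvection_borel {m : ℕ} {i j : Fin m} (hij : i < j) (t : ℂ) :
    IsBorel (Matrix.transvection i j t) := by
  constructor
  · intro p q hpq
    rw [Matrix.transvection, Matrix.add_apply, Matrix.one_apply_ne hpq.ne', zero_add]
    apply Matrix.single_apply_of_ne
    rintro ⟨h1, h2⟩
    subst h1 h2
    exact lt_asymm hij hpq
  · intro p
    rw [Matrix.transvection, Matrix.add_apply, Matrix.one_apply_eq]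
    rw [Matrix.single_apply_of_ne]
    · simp
    · rintro ⟨h1, h2⟩
      subst h1
      exact hij.ne' h2

lemma US_factor {m : ℕ} {i j : Fin m} (hij : i < j) {u : Matrix (Fin m) (Fin m) ℂ}
    (hu : u ∈ US m ((i : ℕ) * m + (m - 1 - (j : ℕ)) + 1)) :
    Matrix.transvection i j (-(u i j)) * u ∈ US m ((i : ℕ) * m + (m - 1 - (j : ℕ))) := by
  obtain ⟨h1, h2, h3⟩ := hu
  refine ⟨fun p => ?_, fun p q hpq => ?_, fun p q hpq hr => ?_⟩
  · by_cases hp : p = i
    · subst hp
      rw [Matrix.transvection_mul_apply_same, h1, h2 j p hij, mul_zero, add_zero]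
    · rw [Matrix.transvection_mul_apply_of_ne _ _ _ _ hp, h1]
  · by_cases hp : p = i
    · subst hp
      rw [Matrix.transvection_mul_apply_same, h2 p q hpq, h2 j q (hpq.trans hij), mul_zero,
        add_zero]
    · rw [Matrix.transvection_mul_apply_of_ne _ _ _ _ hp, h2 p q hpq]
  · rcases Nat.lt_or_ge ((i : ℕ) * m + (m - 1 - (j : ℕ))) ((p : ℕ) * m + (m - 1 - (q : ℕ)))
      with h4 | h4
    · by_cases hp : p = i
      · subst hp
        have hqj : q < j := by
          have hq := q.2
          have hj := j.2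
          show (q : ℕ) < j
          omega
        rw [Matrix.transvection_mul_apply_same, h3 p q hpq h4, h2 j q hqj, mul_zero, add_zero]
      · rw [Matrix.transvection_mul_apply_of_ne _ _ _ _ hp, h3 p q hpq h4]
    · obtain ⟨e1, e2⟩ := code_inj (le_antisymm h4 hr)
      subst e1 e2
      rw [Matrix.transvection_mul_apply_same, h1]
      ring

/-- the hypotheses of the unipotent part (row R7) -/
structure UnipHyp (b a m : ℕ) : Prop where
  nil : ∀ {k l : Fin m}, k ≠ l → ∀ x : Pleth b a m,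
    Polynomial.aeval (plethAct b a m (Matrix.transvection k l 1))
      (∏ _k ∈ Finset.range (b * a + 1), (Polynomial.X - Polynomial.C (1 : ℂ))) x = 0
  fix : ∀ {k l : Fin m}, k ≠ l → ∀ x : Pleth b a m,
    plethAct b a m (Matrix.transvection k l 1) x = x → ∀ t : ℂ,
    plethAct b a m (Matrix.transvection k l t) x = x

lemma step_unip (hpig : PigStmt) {b a m : ℕ} (hU : UnipHyp b a m)
    (E : Submodule ℂ (Pleth b a m))
    (hE : ∀ g, IsBorel g → ∀ x ∈ E, plethAct b a m g x ∈ E) (r : ℕ) :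
    Module.finrank ℂ ↥(E ⊓ FixU b a m r) ≤
      (b * a + 1) * Module.finrank ℂ ↥(E ⊓ FixU b a m (r + 1)) := by
  by_cases hc : ∃ i j : Fin m, i < j ∧ (i : ℕ) * m + (m - 1 - (j : ℕ)) = r
  · obtain ⟨i, j, hij, rfl⟩ := hc
    have hB := transvection_borel hij 1
    obtain ⟨k, -, hk⟩ := pig_mem hpig (E ⊓ FixU b a m ((i : ℕ) * m + (m - 1 - (j : ℕ))))
      (plethAct b a m (Matrix.transvection i j 1))
      (fun x hx => ⟨hE _ hB x hx.1, FixU_stable hB hx.2⟩) (Nat.succ_pos (b * a))
      (fun _ => (1 : ℂ)) (fun x _ => hU.nil hij.ne x)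
    refine hk _ fun x hx h1 => ⟨hx.1, fun u hu => ?_⟩
    rw [one_smul] at h1
    have h2 := hU.fix hij.ne x h1 (u i j)
    have e : u = Matrix.transvection i j (u i j) * (Matrix.transvection i j (-(u i j)) * u) := by
      rw [← mul_assoc, Matrix.transvection_mul_transvection_same _ _ hij.ne, add_neg_cancel,
        Matrix.transvection_zero, one_mul]
    rw [e, act_mul', hx.2 _ (US_factor hij hu), h2]
  · have h1 : E ⊓ FixU b a m r ≤ E ⊓ FixU b a m (r + 1) := by
      intro x hx
      refine ⟨hx.1, fun u hu => hx.2 u ⟨hu.1, hu.2.1, fun p q hpq hr => ?_⟩⟩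
      refine hu.2.2 p q hpq (lt_of_le_of_ne hr ?_)
      intro h
      exact hc ⟨p, q, hpq, h.symm⟩
    have h2 : Module.finrank ℂ ↥(E ⊓ FixU b a m r) ≤
        Module.finrank ℂ ↥(E ⊓ FixU b a m (r + 1)) := by
      let _ := Module.addCommMonoidToAddCommGroup ℂ (M := Pleth b a m)
      exact Submodule.finrank_mono h1
    exact h2.trans (Nat.le_mul_of_pos_left _ (Nat.succ_pos _))

/-- **R8** from R6 and R7 -/
theorem chain_unip_of (hpig : PigStmt) {b a m : ℕ} (hU : UnipHyp b a m)
    (E : Submodule ℂ (Pleth b a m))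
    (hE : ∀ g, IsBorel g → ∀ x ∈ E, plethAct b a m g x ∈ E) (r : ℕ) :
    Module.finrank ℂ E ≤ (b * a + 1) ^ r * Module.finrank ℂ ↥(E ⊓ FixU b a m r) := by
  induction r with
  | zero =>
    rw [pow_zero, one_mul]
    let _ := Module.addCommMonoidToAddCommGroup ℂ (M := Pleth b a m)
    refine Submodule.finrank_mono fun x hx => ⟨hx, fun u hu => ?_⟩
    have : u = 1 := by
      ext p q
      rcases lt_trichotomy p q with h | h | h
      · rw [hu.2.2 p q h (Nat.zero_le _), Matrix.one_apply_ne h.ne]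
      · subst h
        rw [hu.1, Matrix.one_apply_eq]
      · rw [hu.2.1 p q h, Matrix.one_apply_ne h.ne']
    rw [this]
    exact act_one' x
  | succ r ih =>
    calc Module.finrank ℂ E ≤ (b * a + 1) ^ r * Module.finrank ℂ ↥(E ⊓ FixU b a m r) := ih
      _ ≤ (b * a + 1) ^ r * ((b * a + 1) * Module.finrank ℂ ↥(E ⊓ FixU b a m (r + 1))) :=
        Nat.mul_le_mul_left _ (step_unip hpig hU E hE r)
      _ = (b * a + 1) ^ (r + 1) * Module.finrank ℂ ↥(E ⊓ FixU b a m (r + 1)) := by
        rw [pow_succ, mul_assoc]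

/-- the hypotheses of the torus part (row R7) -/
structure TorusHyp (b a m : ℕ) : Prop where
  poly : ∀ (i : Fin m) (x : Pleth b a m), Polynomial.aeval (plethAct b a m (dg i 2))
      (∏ k ∈ Finset.range (b * a + 1), (Polynomial.X - Polynomial.C ((2 : ℂ) ^ k))) x = 0
  fix : ∀ (i : Fin m) {k : ℕ} (x : Pleth b a m),
    plethAct b a m (dg i 2) x = (2 : ℂ) ^ k • x → ∀ t : ℂ,
    plethAct b a m (dg i t) x = t ^ k • x

/-- simultaneous eigenvectors of the first `s` torus elements -/
noncomputable def TW (b a m : ℕ) (lam : Fin m → ℕ) (s : ℕ) : Submodule ℂ (Pleth b a m) where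
  carrier := {x | ∀ i : Fin m, (i : ℕ) < s → plethAct b a m (dg i 2) x = (2 : ℂ) ^ lam i • x}
  add_mem' := by
    intro x y hx hy i hi
    rw [map_add, hx i hi, hy i hi, smul_add]
  zero_mem' := by
    intro i _
    rw [map_zero, smul_zero]
  smul_mem' := by
    intro c x hx i hi
    rw [map_smul, hx i hi, smul_comm]

lemma dg_borel {m : ℕ} (i : Fin m) {t : ℂ} (ht : t ≠ 0) : IsBorel (dg i t) := by
  constructor
  · intro p q hpq
    exact Matrix.diagonal_apply_ne _ hpq.ne'
  · intro p
    rw [dg, Matrix.diagonal_apply_eq]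
    by_cases hp : p = i
    · subst hp
      rw [Function.update_self]
      exact ht
    · rw [Function.update_of_ne hp]
      exact one_ne_zero

lemma dg_comm {m : ℕ} (i j : Fin m) (s t : ℂ) : dg i s * dg j t = dg j t * dg i s := by
  rw [dg, dg, Matrix.diagonal_mul_diagonal, Matrix.diagonal_mul_diagonal]
  congr 1
  funext k
  rw [mul_comm]

lemma torus_steps (hpig : PigStmt) {b a m : ℕ} (hT : TorusHyp b a m)
    (E : Submodule ℂ (Pleth b a m))
    (hE : ∀ g, IsBorel g → ∀ x ∈ E, plethAct b a m g x ∈ E) (s : ℕ) (hs : s ≤ m) :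
    ∃ lam : Fin m → ℕ, Module.finrank ℂ E ≤
      (b * a + 1) ^ s * Module.finrank ℂ ↥(E ⊓ TW b a m lam s) := by
  induction s with
  | zero =>
    refine ⟨0, ?_⟩
    rw [pow_zero, one_mul]
    let _ := Module.addCommMonoidToAddCommGroup ℂ (M := Pleth b a m)
    exact Submodule.finrank_mono fun x hx => ⟨hx, fun i hi => absurd hi (Nat.not_lt_zero _)⟩
  | succ s ih =>
    obtain ⟨lam, h1⟩ := ih (by omega)
    set i : Fin m := ⟨s, hs⟩ with hi_def
    obtain ⟨k, -, hk⟩ := pig_mem hpig (E ⊓ TW b a m lam s) (plethAct b a m (dg i 2))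
      (fun x hx => ⟨hE _ (dg_borel i two_ne_zero) x hx.1, fun j hj => by
        rw [← act_mul', dg_comm, act_mul', hx.2 j hj, map_smul]⟩) (Nat.succ_pos (b * a))
      (fun k => (2 : ℂ) ^ k) (fun x _ => hT.poly i x)
    refine ⟨Function.update lam i k, ?_⟩
    have h2 := hk (E ⊓ TW b a m (Function.update lam i k) (s + 1)) fun x hx h3 => by
      refine ⟨hx.1, fun j hj => ?_⟩
      by_cases hji : j = i
      · subst hji
        rw [Function.update_self]
        exact h3
      · rw [Function.update_of_ne hji]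
        refine hx.2 j ?_
        have : (j : ℕ) ≠ s := fun h => hji (Fin.ext h)
        omega
    calc Module.finrank ℂ E ≤ (b * a + 1) ^ s * Module.finrank ℂ ↥(E ⊓ TW b a m lam s) := h1
      _ ≤ (b * a + 1) ^ s * ((b * a + 1) *
          Module.finrank ℂ ↥(E ⊓ TW b a m (Function.update lam i k) (s + 1))) :=
        Nat.mul_le_mul_left _ h2
      _ = _ := by rw [pow_succ, mul_assoc]

lemma diag_act {b a m : ℕ} {lam : Fin m → ℕ} {x : Pleth b a m} (d : Fin m → ℂ)
    (h : ∀ (i : Fin m) (t : ℂ), plethAct b a m (dg i t) x = t ^ lam i • x) (S : Finset (Fin m)) :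
    plethAct b a m (Matrix.diagonal fun i => if i ∈ S then d i else 1) x =
      (∏ i ∈ S, d i ^ lam i) • x := by
  classical
  induction S using Finset.induction_on with
  | empty =>
    have : (Matrix.diagonal fun i : Fin m => if i ∈ (∅ : Finset (Fin m)) then d i else (1 : ℂ)) =
        1 := by
      ext p q
      simp [Matrix.diagonal_apply, Matrix.one_apply]
    rw [this, act_one', Finset.prod_empty, one_smul]
  | insert j S hj ih =>
    have e : (Matrix.diagonal fun i : Fin m => if i ∈ insert j S then d i else (1 : ℂ)) =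
        dg j (d j) * Matrix.diagonal fun i : Fin m => if i ∈ S then d i else (1 : ℂ) := by
      rw [dg, Matrix.diagonal_mul_diagonal]
      congr 1
      funext i
      by_cases hi : i = j
      · subst hi
        rw [if_pos (Finset.mem_insert_self _ _), if_neg hj, Function.update_self, mul_one]
      · rw [Function.update_of_ne hi]
        by_cases hS : i ∈ S
        · rw [if_pos (Finset.mem_insert_of_mem hS), if_pos hS, Pi.one_apply, one_mul]
        · rw [if_neg hS, if_neg (fun h' => (Finset.mem_insert.1 h').elim hi hS), Pi.one_apply,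
            one_mul]
    rw [e, act_mul', ih, map_smul, h, Finset.prod_insert hj, smul_smul, mul_comm]

/-- **R9** from R6 and R7 -/
theorem rich_of (hpig : PigStmt) {b a m : ℕ} (hU : UnipHyp b a m) (hT : TorusHyp b a m)
    (E : Submodule ℂ (Pleth b a m))
    (hE : ∀ g, IsBorel g → ∀ x ∈ E, plethAct b a m g x ∈ E) :
    ∃ lam : Fin m → ℕ, Module.finrank ℂ E ≤ (b * a + 1) ^ (m * m + m) *
      Module.finrank ℂ ↥(E ⊓ hwSpace lam (plethAct b a m)) := by
  have h1 := chain_unip_of hpig hU E hE (m * m)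
  obtain ⟨lam, h2⟩ := torus_steps hpig hT (E ⊓ FixU b a m (m * m))
    (fun g hg x hx => ⟨hE g hg x hx.1, FixU_stable hg hx.2⟩) m le_rfl
  refine ⟨lam, ?_⟩
  have h3 : Module.finrank ℂ ↥(E ⊓ FixU b a m (m * m) ⊓ TW b a m lam m) ≤
      Module.finrank ℂ ↥(E ⊓ hwSpace lam (plethAct b a m)) := by
    let _ := Module.addCommMonoidToAddCommGroup ℂ (M := Pleth b a m)
    refine Submodule.finrank_mono fun x hx => ⟨hx.1.1, fun g hg => ?_⟩
    set u : Matrix (Fin m) (Fin m) ℂ := Matrix.of fun p q => (g p p)⁻¹ * g p q with hu_def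
    have hu : u ∈ US m (m * m) := by
      refine ⟨fun i => ?_, fun i j hij => ?_, fun i j hij hr => ?_⟩
      · rw [hu_def, Matrix.of_apply, inv_mul_cancel₀ (hg.2 i)]
      · rw [hu_def, Matrix.of_apply, hg.1 i j hij, mul_zero]
      · exfalso
        have h4 : ((i : ℕ) + 1) * m ≤ m * m := Nat.mul_le_mul_right _ i.2
        rw [add_mul, one_mul] at h4
        have := j.2
        omega
    have e : g = (Matrix.diagonal fun i => if i ∈ (Finset.univ : Finset (Fin m)) then g i i
        else 1) * u := by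
      ext p q
      rw [Matrix.diagonal_mul, if_pos (Finset.mem_univ _), hu_def, Matrix.of_apply,
        mul_inv_cancel_left₀ (hg.2 p)]
    have h5 : plethAct b a m g x = plethAct b a m
        (Matrix.diagonal fun i => if i ∈ (Finset.univ : Finset (Fin m)) then g i i else 1) x := by
      conv_lhs => rw [e]
      rw [act_mul', hx.1.2 u hu]
    rw [h5]
    exact diag_act (fun i => g i i) (fun i t => hT.fix i x (hx.2 i i.2) t) _
  calc Module.finrank ℂ E ≤ (b * a + 1) ^ (m * m) *
        Module.finrank ℂ ↥(E ⊓ FixU b a m (m * m)) := h1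
    _ ≤ (b * a + 1) ^ (m * m) * ((b * a + 1) ^ m *
        Module.finrank ℂ ↥(E ⊓ hwSpace lam (plethAct b a m))) :=
      Nat.mul_le_mul_left _ (h2.trans (Nat.mul_le_mul_left _ h3))
    _ = _ := by rw [pow_add, mul_assoc]

end Vale.Agent.P181.FR
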