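import Vale.Agent.P181.R2.H207.Final
import Vale.Agent.P181.R2.H182.PtMul

/-! P181.FewRowsInterior, row T4 (helper822): the case of `b` points of smaller degree. -/

set_option autoImplicit false

open scoped TensorProduct

namespace Vale.Agent.P181.FR

open Vale.Agent.P181 Vale.Agent.P181.H280

/-- **T4** -/
theorem core_b {n a b c : ℕ} (L : ℕ)
    (hL : ∀ lam : Fin (n + 3) → ℕ, plethMult a b (n + 3) lam ≤ L) (hL0 : 0 < L)
    (hD : L * (b * c + 1) ^ ((n + 3) * (n + 3) + (n + 3)) ≤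
      Module.finrank ℂ (Pleth b c (n + 3)))
    (hc : c + (n + 3) ≤ a) (lam : Fin (n + 3) → ℕ) (hsum : ∑ i, lam i = a * b)
    (hl0 : lam 1 + c * b + b + 4 * (n + 3) ^ 2 * a ≤ lam 0)
    (hl : ∀ i : Fin (n + 1),
      lam i.succ.succ + c * b + (n + 3) ^ 3 + 3 ≤ lam i.succ.castSucc)
    (hlast : c * b ≤ lam (Fin.last _)) :
    plethMult a b (n + 3) lam ≤ plethMult b a (n + 3) lam := by
  -- a rich weight in `Sym^b(Sym^c)`
  obtain ⟨lam', hr⟩ := rich (b := b) (a := c) (m := n + 3) ⊤ (fun _ _ _ _ => trivial)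
  rw [finrank_top, top_inf_eq] at hr
  have hPpos : 0 < (b * c + 1) ^ ((n + 3) * (n + 3) + (n + 3)) := by positivity
  have h4 : L ≤ plethMult b c (n + 3) lam' := by
    refine Nat.le_of_mul_le_mul_right (hD.trans (hr.trans (le_of_eq ?_))) hPpos
    rw [Nat.mul_comm]
    rfl
  have hne : hwSpace lam' (plethAct b c (n + 3)) ≠ ⊥ := by
    intro h
    have h5 : plethMult b c (n + 3) lam' = 0 := by
      rw [plethMult, h, finrank_bot]
    omega
  obtain ⟨x, hx, hx0⟩ := Submodule.exists_mem_ne_zero_of_ne_bot hne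
  have hl's : ∑ i, lam' i = b * c := hw_sum hx hx0
  have hsm : ∀ i, lam' i ≤ c * b := by
    intro i
    rw [Nat.mul_comm, ← hl's]
    exact Finset.single_le_sum (fun _ _ => Nat.zero_le _) (Finset.mem_univ _)
  -- steps of `lam`
  have hst : ∀ (k : ℕ) (hk : k + 2 < n + 3),
      lam ⟨k + 2, hk⟩ + c * b + (n + 3) ^ 3 + 3 ≤ lam ⟨k + 1, by omega⟩ :=
    fun k hk => hl ⟨k, by omega⟩
  have hDle : ∀ i : Fin (n + 3), i ≠ 0 → c * b ≤ lam i := by
    intro i hi
    have hi1 : 1 ≤ i := by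
      rw [Fin.le_def, Fin.val_one]
      have : (i : ℕ) ≠ 0 := fun h => hi (Fin.ext h)
      omega
    exact hlast.trans (anti_of_step lam (fun k hk => by have := hst k hk; omega)
      i _ hi1 (Fin.le_last i))
  have hle : ∀ i, lam' i ≤ lam i := by
    intro i
    by_cases hi : i = 0
    · rw [hi]
      have := hsm 0
      omega
    · exact (hsm i).trans (hDle i hi)
  -- the difference
  let mu : Fin (n + 3) → ℕ := fun i => lam i - lam' i
  have hmu : mu + lam' = lam := by
    funext i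
    simp only [Pi.add_apply, mu]
    exact Nat.sub_add_cancel (hle i)
  have hsmu : ∑ i, mu i + ∑ i, lam' i = a * b := by
    rw [← Finset.sum_add_distrib, ← hsum]
    refine Finset.sum_congr rfl (fun i _ => ?_)
    exact congrFun hmu i
  obtain ⟨e, rfl⟩ : ∃ e, a = e + c := ⟨a - c, by omega⟩
  have hpos : Pos b e (n + 3) mu := by
    refine pos_of mu ?_ (by omega) ?_ ?_ ?_
    · have e1 : (e + c) * b = e * b + b * c := by ring
      omega
    · have e1 : mu 1 ≤ lam 1 := Nat.sub_le _ _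
      have e2 : mu 0 + lam' 0 = lam 0 := Nat.sub_add_cancel (hle 0)
      have e3 : 4 * (n + 3) ^ 2 * e ≤ 4 * (n + 3) ^ 2 * (e + c) :=
        Nat.mul_le_mul_left _ (Nat.le_add_right _ _)
      have e4 := hsm 0
      omega
    · have e1 : mu 2 ≤ lam 2 := Nat.sub_le _ _
      have e2 : mu 1 + lam' 1 = lam 1 := Nat.sub_add_cancel (hle 1)
      have e3 := hst 0 (by omega)
      have e4 := hsm 1
      have e5 : (⟨0 + 2, by omega⟩ : Fin (n + 3)) = 2 := Fin.ext (Fin.val_two (n := n)).symm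
      have e6 : (⟨0 + 1, by omega⟩ : Fin (n + 3)) = 1 := Fin.ext (Fin.val_one (n := n + 1)).symm
      rw [e5, e6] at e3
      omega
    · refine anti_of_step mu (fun k hk => ?_)
      have e1 : mu ⟨k + 2, hk⟩ ≤ lam ⟨k + 2, hk⟩ := Nat.sub_le _ _
      have e2 : mu ⟨k + 1, by omega⟩ + lam' ⟨k + 1, by omega⟩ = lam ⟨k + 1, by omega⟩ :=
        Nat.sub_add_cancel (hle _)
      have e3 := hst k hk
      have e4 := hsm ⟨k + 1, by omega⟩
      omega
  calc plethMult (e + c) b (n + 3) lam ≤ L := hL lam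
    _ ≤ plethMult b c (n + 3) lam' := h4
    _ ≤ plethMult b (e + c) (n + 3) (mu + lam') := plethMult_pt hpos
    _ = plethMult b (e + c) (n + 3) lam := by rw [hmu]

end Vale.Agent.P181.FR
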