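import Vale.Agent.P181.R2.H822.W5
import Vale.Agent.P181.R2.H182.PtMul
import Vale.Agent.P181.R2.H207.Pow

/-! P181, Theorem W, row W9: weights with a gap at least `C a^2` at some `i ≥ 3`. -/

set_option autoImplicit false

open Finset

namespace Vale.Agent.P181.FR

open Vale.Agent.P181 Vale.Agent.P181.H280

namespace H822W

lemma split_one {m a B j c b1 : ℕ} (ha : 0 < a) (g : ℕ → ℕ) (hj : 1 ≤ j) (hjm : j ≤ m)
    (hc : c ≤ g j) (hb : j * c = a * b1) (hs : ∑ l ∈ Icc 1 m, l * g l = a * B) :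
    b1 ≤ B ∧ ∑ l ∈ Icc 1 m, l * (Function.update g j (g j - c)) l = a * (B - b1) ∧
      gw m g = gw m (Function.update g j (g j - c)) + c • om m j := by
  have hg : g = Function.update g j (g j - c) + Pi.single j c := by
    funext l
    by_cases h : l = j
    · subst h
      rw [Pi.add_apply, Function.update_self, Pi.single_eq_same, Nat.sub_add_cancel hc]
    · rw [Pi.add_apply, Function.update_of_ne h, Pi.single_eq_of_ne h, add_zero]
  have h1 : ∑ l ∈ Icc 1 m, l * (Function.update g j (g j - c)) l + a * b1 = a * B := by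
    rw [← hs, ← hb, ← sum_single c hj hjm, ← Finset.sum_add_distrib]
    refine Finset.sum_congr rfl (fun l _ => ?_)
    rw [← mul_add]
    conv_rhs => rw [hg]
    rfl
  have h2 : b1 ≤ B := by
    by_contra h
    have h3 : a * B < a * b1 := Nat.mul_lt_mul_of_pos_left (not_le.1 h) ha
    omega
  refine ⟨h2, by rw [Nat.mul_sub]; omega, ?_⟩
  rw [← gw_single c hjm, ← gw_add, ← hg]

/-- The numbers of W9. -/
lemma numbers9 (N m : ℕ) (hm : 1 ≤ m) : ∃ A : ℕ, ∀ a b : ℕ, A ≤ a → b + 1 ≤ a ^ 2 →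
    ∃ c h s : ℕ, N * (h + 1) ≤ c ∧ (4 * m * a) * s ≤ h * h ∧ 4 * c ≤ a ∧
      (b + 1) ^ (m * a) ≤ s ^ (4 * m * a) := by
  set D := 2048 * m * (N + 1) ^ 2 with hD
  have hDpos : 0 < D := by positivity
  have hDN : 16 * (N + 1) ≤ D := by
    rw [hD]
    nlinarith [sq_nonneg (N + 1), Nat.zero_le N, Nat.mul_le_mul hm (le_refl ((N + 1) ^ 2))]
  refine ⟨D ^ 2, fun a b ha hb => ?_⟩
  have haD : D ≤ a := le_trans (by nlinarith) ha
  have ha0 : 0 < a := lt_of_lt_of_le hDpos haD
  set h := a / (8 * (N + 1)) with hh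
  have h1 : 8 * (N + 1) * h ≤ a := Nat.mul_div_le a _
  have h2 : a < 8 * (N + 1) * (h + 1) := by
    have := Nat.lt_mul_div_succ a (b := 8 * (N + 1)) (by positivity)
    exact this
  have h3 : a ≤ 16 * (N + 1) * h := by
    have h4 : 16 * (N + 1) ≤ a := hDN.trans haD
    nlinarith
  have hR : 0 < 4 * m * a := by positivity
  set s := h * h / (4 * m * a) with hs
  have h5 : 4 * m * a * s ≤ h * h := Nat.mul_div_le _ _
  have h6 : h * h < 4 * m * a * (s + 1) := Nat.lt_mul_div_succ _ hR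
  have h7 : a < 1024 * m * (N + 1) ^ 2 * (s + 1) := by
    have h8 : a * a ≤ (16 * (N + 1) * h) * (16 * (N + 1) * h) := Nat.mul_le_mul h3 h3
    have h9 : (16 * (N + 1) * h) * (16 * (N + 1) * h) = 256 * (N + 1) ^ 2 * (h * h) := by ring
    have h10 : 256 * (N + 1) ^ 2 * (h * h) < 256 * (N + 1) ^ 2 * (4 * m * a * (s + 1)) :=
      Nat.mul_lt_mul_of_pos_left h6 (by positivity)
    have h11 : 256 * (N + 1) ^ 2 * (4 * m * a * (s + 1)) =
        a * (1024 * m * (N + 1) ^ 2 * (s + 1)) := by ring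
    have h12 : a * a < a * (1024 * m * (N + 1) ^ 2 * (s + 1)) := by
      rw [← h11]
      exact lt_of_le_of_lt (h9 ▸ h8) h10
    exact Nat.lt_of_mul_lt_mul_left h12
  have h8 : a ≤ D * s := by
    have h9 : 2 * (1024 * m * (N + 1) ^ 2 * (s + 1)) = D * s + D := by rw [hD]; ring
    omega
  have h9 : a ≤ s ^ 2 := by
    have h10 : a * a ≤ (D * s) * (D * s) := Nat.mul_le_mul h8 h8
    have h11 : D ^ 2 * a ≤ a * a := Nat.mul_le_mul_right _ ha
    have h12 : D ^ 2 * a ≤ D ^ 2 * s ^ 2 := by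
      calc D ^ 2 * a ≤ a * a := h11
        _ ≤ (D * s) * (D * s) := h10
        _ = D ^ 2 * s ^ 2 := by ring
    exact Nat.le_of_mul_le_mul_left h12 (by positivity)
  refine ⟨a / 4, h, s, ?_, h5, Nat.mul_div_le a 4, ?_⟩
  · have h10 : 8 * (N * (h + 1)) ≤ a + 8 * N := by nlinarith
    have h11 : 16 * (N + 1) ≤ a := hDN.trans haD
    omega
  · calc (b + 1) ^ (m * a) ≤ (a ^ 2) ^ (m * a) := Nat.pow_le_pow_left hb _
      _ ≤ ((s ^ 2) ^ 2) ^ (m * a) :=
          Nat.pow_le_pow_left (Nat.pow_le_pow_left h9 2) _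
      _ = s ^ (4 * m * a) := by
          rw [← pow_mul, ← pow_mul]
          congr 1
          ring

theorem gap_case_of {m i : ℕ} (hi : 3 ≤ i) (him : i ≤ m)
    (pos_all : ∃ a0 : ℕ, ∀ (a B : ℕ) (g : ℕ → ℕ),
      a0 ≤ a → 3 * (m + 1) * a ≤ g i → ∑ j ∈ Finset.Icc 1 m, j * g j = a * B →
      Pos B a m (gw m g))
    (rich_rect : ∃ N : ℕ, ∀ c h R s : ℕ,
      N * (h + 1) ≤ c → R * s ≤ h * h →
      s ^ R ≤ plethMult (2 * i * R) (2 * c) m ((4 * c * R) • om m i)) :
    ∃ C : ℕ, ∀ (a b : ℕ) (g : ℕ → ℕ),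
      C ≤ a → b + 1 ≤ a ^ 2 → ∑ j ∈ Finset.Icc 1 m, j * g j = a * b → C * a ^ 2 ≤ g i →
      plethMult a b m (gw m g) ≤ plethMult b a m (gw m g) := by
  obtain ⟨a0, hpos⟩ := pos_all
  obtain ⟨N, hrich⟩ := rich_rect
  obtain ⟨A, hA⟩ := numbers9 N m (by omega)
  refine ⟨2 * a0 + A + 11 * m + 4, fun a b g ha hb hs hg => ?_⟩
  obtain ⟨c, h, s, hc, hRs, hca, hpow⟩ := hA a b (by omega) hb
  have ha1 : 1 ≤ a := by omega
  set R := 4 * m * a with hR
  -- the rich block
  have hkey : s ^ R ≤ plethMult (2 * i * R) a m ((2 * R * a) • om m i) := by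
    refine (hrich c h R s hc hRs).trans ?_
    have h1 : Pos (2 * i * R) (a - 2 * c) m ((2 * R * (a - 2 * c)) • om m i) := by
      rw [← gw_single _ him]
      refine hpos (a - 2 * c) (2 * i * R) _ (by omega) ?_ ?_
      · rw [Pi.single_eq_same]
        refine Nat.mul_le_mul_right _ ?_
        rw [hR]
        nlinarith
      · rw [sum_single _ (by omega) him]
        ring
    have h2 := plethMult_pt (c := 2 * c) (lam := (4 * c * R) • om m i) h1
    have h3 : a - 2 * c + 2 * c = a := by omega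
    have h4 : (2 * R * (a - 2 * c)) • om m i + (4 * c * R) • om m i =
        (2 * R * a) • om m i := by
      rw [← add_smul]
      congr 1
      calc 2 * R * (a - 2 * c) + 4 * c * R = 2 * R * (a - 2 * c + 2 * c) := by ring
        _ = 2 * R * a := by rw [h3]
    rw [h3, h4] at h2
    exact h2
  -- the rest
  have h5 : 2 * R * a + 3 * (m + 1) * a ≤ g i := by
    refine le_trans ?_ hg
    rw [hR]
    nlinarith [Nat.mul_le_mul ha1 (le_refl a), Nat.zero_le (m * a * a)]
  obtain ⟨h6, h7, h8⟩ := split_one (b1 := 2 * i * R) (c := 2 * R * a) (by omega) g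
    (by omega) him (by omega) (by ring) hs
  have h9 : Pos (b - 2 * i * R) a m (gw m (Function.update g i (g i - 2 * R * a))) := by
    refine hpos a _ _ (by omega) ?_ h7
    rw [Function.update_self]
    omega
  have h10 := plethMult_mul (b := 2 * i * R) (lam := (2 * R * a) • om m i) h9
  rw [Nat.add_sub_cancel' h6, add_comm ((2 * R * a) • om m i), ← h8] at h10
  exact (plethMult_le_pow a b m _).trans (hpow.trans (hkey.trans h10))

end H822W

end Vale.Agent.P181.FR
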